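import Vale.Agent.P072.Chem
import Mathlib.MeasureTheory.Integral.IntervalIntegral.FundThmCalculus
import Mathlib.Analysis.Calculus.ContDiff.RCLike
import Mathlib.LinearAlgebra.Dual.Lemmas
import Mathlib.Topology.Algebra.Module.FiniteDimension

/-!
The moving barrier argument.
-/

namespace Vale.Agent.P072

open Filter Set Real MeasureTheory Topology

variable {d : ℕ}

lemma integral_mem_subspace (S : Submodule ℝ (Fin d → ℝ)) {g : ℝ → Fin d → ℝ} {a b : ℝ}
    (hg : IntervalIntegrable g volume a b) (hS : ∀ s, g s ∈ S) :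
    ∫ s in a..b, g s ∈ S := by
  rw [← Subspace.forall_mem_dualAnnihilator_apply_eq_zero_iff]
  intro φ hφ
  have h1 := (LinearMap.toContinuousLinearMap φ).intervalIntegral_comp_comm hg
  simp only [LinearMap.coe_toContinuousLinearMap'] at h1
  rw [← h1]
  have : ∀ s, φ (g s) = 0 := fun s => (Submodule.mem_dualAnnihilator φ).1 hφ _ (hS s)
  simp [this]

lemma dot_integral_le (w : Fin d → ℝ) {g : ℝ → Fin d → ℝ} {a b κ : ℝ} (hab : a ≤ b)
    (hg : IntervalIntegrable g volume a b) (h : ∀ s ∈ Icc a b, w ⬝ᵥ g s ≤ -κ) :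
    w ⬝ᵥ (∫ s in a..b, g s) ≤ -κ * (b - a) := by
  let φ : (Fin d → ℝ) →ₗ[ℝ] ℝ :=
    { toFun := fun v => w ⬝ᵥ v
      map_add' := fun u v => dotProduct_add _ _ _
      map_smul' := fun c v => dotProduct_smul _ _ _ }
  have h1 := (LinearMap.toContinuousLinearMap φ).intervalIntegral_comp_comm hg
  have h2 : IntervalIntegrable (fun s => LinearMap.toContinuousLinearMap φ (g s)) volume a b :=
    ⟨(LinearMap.toContinuousLinearMap φ).integrable_comp hg.1,
      (LinearMap.toContinuousLinearMap φ).integrable_comp hg.2⟩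
  have h3 := intervalIntegral.integral_mono_on hab h2
    (intervalIntegrable_const (c := -κ)) h
  rw [h1] at h3
  simp only [intervalIntegral.integral_const, smul_eq_mul] at h3
  have h4 : w ⬝ᵥ (∫ s in a..b, g s) ≤ (b - a) * -κ := h3
  linarith

lemma continuous_dot (w : Fin d → ℝ) : Continuous fun x : Fin d → ℝ => w ⬝ᵥ x := by
  unfold dotProduct
  fun_prop

theorem barrier {W : Set ((Fin d → ℝ) × (ℝ → ℝ))} (hW : W.Finite)
    (hC : ∀ z ∈ W, ContDiff ℝ 1 z.2) (S : Submodule ℝ (Fin d → ℝ)) (c : Fin d → ℝ)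
    (G : (Fin d → ℝ) → (Fin d → ℝ) → ℝ) (hG : ∀ w, Continuous (G w))
    {T0 T1 lo hi : ℝ} (hT : T0 ≤ T1) (hlo : 0 < lo) (hhi : 0 < hi)
    (hbox : ∀ T ∈ Icc T0 T1, ∀ x : Fin d → ℝ, (∀ i, 0 < x i) → (∀ z ∈ W, z.1 ⬝ᵥ x ≤ z.2 T) →
      ∀ i, lo ≤ x i ∧ x i ≤ hi)
    (hneg : ∀ T ∈ Icc T0 T1, ∀ x : Fin d → ℝ, (∀ i, 0 < x i) → x - c ∈ S →
      (∀ z ∈ W, z.1 ⬝ᵥ x ≤ z.2 T) → ∀ z ∈ W, z.1 ⬝ᵥ x = z.2 T → G z.1 x < 0) :
    ∃ η > 0, ∀ (F : ℝ → (Fin d → ℝ) → (Fin d → ℝ)), (∀ s x, F s x ∈ S) →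
      (∀ s, 0 ≤ s → ∀ x : Fin d → ℝ, (∀ i, lo / 2 ≤ x i ∧ x i ≤ 2 * hi) →
        ∀ w, w ⬝ᵥ F s x ≤ G w x) →
      ∀ (x : ℝ → Fin d → ℝ) (t : ℝ), ContinuousOn x (Icc 0 t) →
        (∀ s ∈ Icc 0 t, IntervalIntegrable (fun u => F u (x u)) volume 0 s ∧
          x s = x 0 + ∫ u in (0 : ℝ)..s, F u (x u)) →
        x 0 - c ∈ S → (∀ i, 0 < x 0 i) → (∀ z ∈ W, z.1 ⬝ᵥ x 0 ≤ z.2 T1) →
        ∀ s ∈ Icc 0 t, x s - c ∈ S ∧ (∀ i, 0 < x s i) ∧
          ∀ z ∈ W, z.1 ⬝ᵥ x s ≤ z.2 (max T0 (T1 - η * s)) := by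
  have hSc : IsClosed (S : Set (Fin d → ℝ)) := S.closed_of_finiteDimensional
  -- uniform decrease rate
  have hκ : ∀ᶠ κ : ℝ in 𝓝[>] 0, ∀ z ∈ W, ∀ T ∈ Icc T0 T1, ∀ x : Fin d → ℝ,
      (∀ i, lo ≤ x i ∧ x i ≤ hi) → x - c ∈ S → (∀ z ∈ W, z.1 ⬝ᵥ x ≤ z.2 T) →
      z.1 ⬝ᵥ x = z.2 T → G z.1 x < -κ := by
    refine (eventually_all_finite hW).2 fun z hz => ?_
    let A : Set (ℝ × (Fin d → ℝ)) := (Icc T0 T1 ×ˢ Icc (fun _ => lo) (fun _ => hi)) ∩
      ({p | p.2 - c ∈ S} ∩ ((⋂ z' ∈ W, {p | z'.1 ⬝ᵥ p.2 ≤ z'.2 p.1}) ∩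
        {p | z.1 ⬝ᵥ p.2 = z.2 p.1}))
    have hA : IsCompact A := by
      refine (isCompact_Icc.prod isCompact_Icc).inter_right (IsClosed.inter ?_
        (IsClosed.inter (isClosed_biInter fun z' hz' => ?_) ?_))
      · exact hSc.preimage (by fun_prop : Continuous fun p : ℝ × (Fin d → ℝ) => p.2 - c)
      · exact isClosed_le ((continuous_dot _).comp continuous_snd)
          ((hC z' hz').continuous.comp continuous_fst)
      · exact isClosed_eq ((continuous_dot _).comp continuous_snd)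
          ((hC z hz).continuous.comp continuous_fst)
    have hmem : ∀ T ∈ Icc T0 T1, ∀ x : Fin d → ℝ,
        (∀ i, lo ≤ x i ∧ x i ≤ hi) → x - c ∈ S → (∀ z ∈ W, z.1 ⬝ᵥ x ≤ z.2 T) →
        z.1 ⬝ᵥ x = z.2 T → (T, x) ∈ A := fun T hT x h1 h2 h3 h4 =>
      ⟨⟨hT, fun i => (h1 i).1, fun i => (h1 i).2⟩, h2, mem_iInter₂.2 h3, h4⟩
    rcases A.eq_empty_or_nonempty with hemp | hne
    · exact Eventually.of_forall fun κ T hT x h1 h2 h3 h4 =>
        absurd (hmem T hT x h1 h2 h3 h4) (by rw [hemp]; exact notMem_empty _)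
    · obtain ⟨p, hp, hmax⟩ := hA.exists_isMaxOn hne
        ((hG z.1).comp continuous_snd).continuousOn
      have hp0 : G z.1 p.2 < 0 := hneg p.1 hp.1.1 p.2 (fun i => hlo.trans_le (hp.1.2.1 i))
        hp.2.1 (mem_iInter₂.1 hp.2.2.1) z hz hp.2.2.2
      have h5 : ∀ᶠ κ : ℝ in 𝓝[>] 0, κ < -G z.1 p.2 :=
        (gt_mem_nhds (by linarith : (0 : ℝ) < -G z.1 p.2)).filter_mono nhdsWithin_le_nhds
      filter_upwards [h5] with κ hκ T hT x h1 h2 h3 h4
      have : G z.1 x ≤ G z.1 p.2 := hmax (hmem T hT x h1 h2 h3 h4)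
      linarith
  obtain ⟨κ, hκ, hκ0⟩ := (hκ.and self_mem_nhdsWithin).exists
  have hκ0 : 0 < κ := hκ0
  -- uniform Lipschitz constant
  have hL : ∀ᶠ L : ℝ in atTop, ∀ z ∈ W, ∀ T ∈ Icc T0 T1, ∀ T' ∈ Icc T0 T1,
      |z.2 T - z.2 T'| ≤ L * |T - T'| := by
    refine (eventually_all_finite hW).2 fun z hz => ?_
    obtain ⟨K, hK⟩ := (hC z hz).contDiffOn.exists_lipschitzOnWith one_ne_zero
      (convex_Icc T0 T1) isCompact_Icc
    filter_upwards [eventually_ge_atTop (K : ℝ)] with L hL T hT T' hT'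
    have := hK.dist_le_mul T hT T' hT'
    rw [Real.dist_eq, Real.dist_eq] at this
    exact this.trans (mul_le_mul_of_nonneg_right hL (abs_nonneg _))
  obtain ⟨L, hL, hL0⟩ := (hL.and (eventually_gt_atTop (0 : ℝ))).exists
  refine ⟨κ / L, div_pos hκ0 hL0, ?_⟩
  intro F hFS hFG x t hx hint h0S h0 h0K
  set η := κ / L with hη
  have hη0 : 0 < η := div_pos hκ0 hL0
  let θ : ℝ → ℝ := fun s => max T0 (T1 - η * s)
  have hθc : Continuous θ := by simp only [θ]; fun_prop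
  have hθ : ∀ s, 0 ≤ s → θ s ∈ Icc T0 T1 := fun s hs =>
    ⟨le_max_left _ _, max_le hT (by nlinarith)⟩
  have hxS : ∀ s ∈ Icc 0 t, x s - c ∈ S := by
    intro s hs
    have h1 := integral_mem_subspace S (hint s hs).1 (fun u => hFS u _)
    have h2 : x s - c = (x 0 - c) + ∫ u in (0 : ℝ)..s, F u (x u) := by
      conv_lhs => rw [(hint s hs).2]
      abel
    rw [h2]
    exact S.add_mem h0S h1
  let good : Set ℝ := {u | (∀ i, lo ≤ x u i) ∧ ∀ z ∈ W, z.1 ⬝ᵥ x u ≤ z.2 (θ u)}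
  have hgood : Icc 0 t ⊆ good := by
    refine IsClosed.Icc_subset_of_forall_mem_nhdsWithin ?_ ?_ ?_
    · have e : good ∩ Icc 0 t = Icc 0 t ∩ (fun u => (x u, θ u)) ⁻¹'
          ((⋂ i, {p : (Fin d → ℝ) × ℝ | lo ≤ p.1 i}) ∩
            ⋂ z ∈ W, {p : (Fin d → ℝ) × ℝ | z.1 ⬝ᵥ p.1 ≤ z.2 p.2}) := by
        ext u
        simp only [good, mem_inter_iff, mem_ofPred_eq, mem_preimage, mem_iInter]
        tauto
      rw [e]
      refine ContinuousOn.preimage_isClosed_of_isClosed (hx.prodMk hθc.continuousOn) isClosed_Icc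
        (IsClosed.inter (isClosed_iInter fun i => ?_) (isClosed_biInter fun z hz => ?_))
      · exact isClosed_le continuous_const (by fun_prop)
      · exact isClosed_le ((continuous_dot _).comp continuous_fst)
          ((hC z hz).continuous.comp continuous_snd)
    · have e : θ 0 = T1 := by simp [θ, hT]
      refine ⟨fun i => (hbox T1 (right_mem_Icc.2 hT) _ h0 h0K i).1, fun z hz => ?_⟩
      rw [e]; exact h0K z hz
    · rintro t0 ⟨hg, ht0⟩
      have ht0' : t0 ∈ Icc 0 t := Ico_subset_Icc_self ht0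
      have hpos0 : ∀ i, 0 < x t0 i := fun i => hlo.trans_le (hg.1 i)
      have hb0 := hbox _ (hθ t0 ht0.1) _ hpos0 hg.2
      have hcw : Tendsto x (𝓝[≥] t0) (𝓝 (x t0)) :=
        (hx t0 ht0').tendsto.mono_left (nhdsWithin_le_of_mem (Icc_mem_nhdsGE_of_mem ht0))
      have hθw : Tendsto θ (𝓝[≥] t0) (𝓝 (θ t0)) :=
        hθc.continuousAt.tendsto.mono_left nhdsWithin_le_nhds
      have e1 : ∀ᶠ u in 𝓝[≥] t0, ∀ i, lo / 2 ≤ x u i ∧ x u i ≤ 2 * hi := by
        refine eventually_all.2 fun i => ?_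
        have h1 : Tendsto (fun u => x u i) (𝓝[≥] t0) (𝓝 (x t0 i)) :=
          ((continuous_apply i).tendsto _).comp hcw
        exact (h1.eventually (le_mem_nhds (by linarith [(hb0 i).1]))).and
          (h1.eventually (ge_mem_nhds (by linarith [(hb0 i).2])))
      have e2 : ∀ᶠ u in 𝓝[≥] t0, ∀ z ∈ W, (z.1 ⬝ᵥ x t0 = z.2 (θ t0) → G z.1 (x u) < -κ) ∧
          (z.1 ⬝ᵥ x t0 ≠ z.2 (θ t0) → z.1 ⬝ᵥ x u < z.2 (θ u)) := by
        refine (eventually_all_finite hW).2 fun z hz => ?_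
        by_cases hact : z.1 ⬝ᵥ x t0 = z.2 (θ t0)
        · have h1 := hκ z hz _ (hθ t0 ht0.1) _ hb0 (hxS t0 ht0') hg.2 hact
          have h2 := (((hG z.1).tendsto _).comp hcw).eventually (gt_mem_nhds h1)
          filter_upwards [h2] with u hu using ⟨fun _ => hu, fun h => absurd hact h⟩
        · have h1 : z.1 ⬝ᵥ x t0 < z.2 (θ t0) := lt_of_le_of_ne (hg.2 z hz) hact
          have h2 := (((continuous_dot z.1).tendsto _).comp hcw).eventually_lt
            (((hC z hz).continuous.tendsto _).comp hθw) h1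
          filter_upwards [h2] with u hu using ⟨fun h => absurd h hact, fun _ => hu⟩
      obtain ⟨t1, ht1, hsub⟩ := mem_nhdsGE_iff_exists_Icc_subset.1
        ((e1.and e2).and (Icc_mem_nhdsGE_of_mem ht0))
      filter_upwards [Ioc_mem_nhdsGT ht1] with u hu
      have hu' := hsub (Ioc_subset_Icc_self hu)
      have hut : u ∈ Icc 0 t := hu'.2
      have hK : ∀ z ∈ W, z.1 ⬝ᵥ x u ≤ z.2 (θ u) := by
        intro z hz
        by_cases hact : z.1 ⬝ᵥ x t0 = z.2 (θ t0)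
        · have h1 : x u - x t0 = ∫ s in t0..u, F s (x s) := by
            rw [← intervalIntegral.integral_interval_sub_left (hint u hut).1 (hint t0 ht0').1]
            conv_lhs => rw [(hint u hut).2, (hint t0 ht0').2]
            abel
          have h2 := dot_integral_le z.1 (κ := κ) hu.1.le
            ((hint t0 ht0').1.symm.trans (hint u hut).1) (fun s hs => by
              have hs' := hsub ⟨hs.1, hs.2.trans hu.2⟩
              exact (hFG s hs'.2.1 _ hs'.1.1 _).trans ((hs'.1.2 z hz).1 hact).le)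
          rw [← h1, dotProduct_sub] at h2
          have h3 := hL z hz _ (hθ t0 ht0.1) _ (hθ u hut.1)
          have h4 : |θ t0 - θ u| ≤ η * (u - t0) := by
            refine (abs_max_sub_max_le_max _ _ _ _).trans (max_le ?_ ?_)
            · simp only [sub_self, abs_zero]
              exact mul_nonneg hη0.le (by linarith [hu.1])
            · rw [abs_of_nonneg (by nlinarith [hu.1])]
              linarith
          have h5 : L * (η * (u - t0)) = κ * (u - t0) := by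
            rw [hη]; field_simp
          have h6 := (le_abs_self _).trans (h3.trans (mul_le_mul_of_nonneg_left h4 hL0.le))
          linarith
        · exact ((hu'.1.2 z hz).2 hact).le
      exact ⟨fun i => (hbox _ (hθ u hut.1) _
        (fun i => (half_pos hlo).trans_le (hu'.1.1 i).1) hK i).1, hK⟩
  intro s hs
  exact ⟨hxS s hs, fun i => hlo.trans_le ((hgood hs).1 i), (hgood hs).2⟩

end Vale.Agent.P072
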