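import Vale.Agent.P072.Defs
import Mathlib.Data.Matrix.Mul
import Mathlib.Analysis.SpecialFunctions.Log.Basic

/-!
Weak reversibility makes a sign-compatible linear functional decrease.
-/

namespace Vale.Agent.P072

open Filter Set Real

variable {d : ℕ}

/-- The worst case of `w ⬝ᵥ f(x)` over rates in `[ε, ε⁻¹]`. -/
noncomputable def worst (R : Finset ((Fin d → ℕ) × (Fin d → ℕ))) (ε : ℝ) (w x : Fin d → ℝ) : ℝ :=
  ∑ r ∈ R, (if 0 < w ⬝ᵥ reactVec r then ε⁻¹ else ε) * (∏ i, x i ^ r.1 i) * (w ⬝ᵥ reactVec r)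

lemma worst_continuous (R : Finset ((Fin d → ℕ) × (Fin d → ℕ))) (ε : ℝ) (w : Fin d → ℝ) :
    Continuous (worst R ε w) := by
  unfold worst
  fun_prop

lemma dot_massAction_le (R : Finset ((Fin d → ℕ) × (Fin d → ℕ))) (ε : ℝ) (w x : Fin d → ℝ)
    (k : (Fin d → ℕ) × (Fin d → ℕ) → ℝ) (hk : ∀ r ∈ R, ε ≤ k r ∧ k r ≤ ε⁻¹)
    (hx : ∀ i, 0 ≤ x i) : w ⬝ᵥ massAction R k x ≤ worst R ε w x := by
  unfold massAction worst
  rw [dotProduct_sum]
  refine Finset.sum_le_sum fun r hr => ?_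
  rw [dotProduct_smul, smul_eq_mul]
  have hm : 0 ≤ ∏ i, x i ^ r.1 i := Finset.prod_nonneg fun i _ => pow_nonneg (hx i) _
  split_ifs with h
  · exact mul_le_mul_of_nonneg_right (mul_le_mul_of_nonneg_right (hk r hr).2 hm) h.le
  · exact mul_le_mul_of_nonpos_right (mul_le_mul_of_nonneg_right (hk r hr).1 hm) (not_lt.1 h)

lemma path_cross {α : Type*} {rel : α → α → Prop} (h : α → ℝ) (τ : ℝ) {a b : α}
    (hab : Relation.ReflTransGen rel a b) (ha : τ < h a) (hb : h b ≤ τ) :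
    ∃ z z', rel z z' ∧ τ < h z ∧ h z' ≤ τ := by
  induction hab with
  | refl => exact absurd ha (not_lt.2 hb)
  | @tail m b _ hmb ih =>
    by_cases hm : h m ≤ τ
    · exact ih hm
    · exact ⟨m, b, hmb, not_le.1 hm, hb⟩

lemma monomial_eq {x : Fin d → ℝ} (hx : ∀ i, 0 < x i) (y : Fin d → ℕ) :
    ∏ i, x i ^ y i = exp ((fun i => log (x i)) ⬝ᵥ (fun i => (y i : ℝ))) := by
  unfold dotProduct
  rw [Real.exp_sum]
  refine Finset.prod_congr rfl fun i _ => ?_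
  rw [mul_comm, Real.exp_nat_mul, Real.exp_log (hx i)]

/-- The differences of source complexes. -/
noncomputable def srcDiff (R : Finset ((Fin d → ℕ) × (Fin d → ℕ))) : Finset (Fin d → ℝ) := by
  classical exact (R ×ˢ R).image fun p => reactVec (p.1.1, p.2.1)

lemma mem_srcDiff {R : Finset ((Fin d → ℕ) × (Fin d → ℕ))} {r r' : (Fin d → ℕ) × (Fin d → ℕ)}
    (hr : r ∈ R) (hr' : r' ∈ R) : reactVec (r.1, r'.1) ∈ srcDiff R := by
  classical
  unfold srcDiff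
  exact Finset.mem_image.2 ⟨(r, r'), Finset.mem_product.2 ⟨hr, hr'⟩, rfl⟩

lemma dot_reactVec (w : Fin d → ℝ) (r : (Fin d → ℕ) × (Fin d → ℕ)) :
    w ⬝ᵥ reactVec r = w ⬝ᵥ (fun i => (r.2 i : ℝ)) - w ⬝ᵥ (fun i => (r.1 i : ℝ)) := by
  rw [← dotProduct_sub]; rfl

theorem chem {R : Finset ((Fin d → ℕ) × (Fin d → ℕ))} (hR : WeaklyReversible R) {ε : ℝ}
    (hε : 0 < ε) (w : Fin d → ℝ) :
    ∀ᶠ δ : ℝ in atTop, ∀ x : Fin d → ℝ, (∀ i, 0 < x i) →
      (∀ v ∈ srcDiff R, 0 < w ⬝ᵥ v → δ ≤ (fun i => log (x i)) ⬝ᵥ v) →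
      (∃ r ∈ R, w ⬝ᵥ reactVec r ≠ 0) → worst R ε w x < 0 := by
  have hev : ∀ᶠ δ : ℝ in atTop, ∀ r ∈ R, ∀ r' ∈ R, w ⬝ᵥ reactVec r' < 0 →
      2 * R.card * ε⁻¹ * (w ⬝ᵥ reactVec r) ≤ exp δ * (ε * (-(w ⬝ᵥ reactVec r'))) := by
    refine (eventually_all_finset R).2 fun r _ => (eventually_all_finset R).2 fun r' _ => ?_
    by_cases h : w ⬝ᵥ reactVec r' < 0
    · have h1 : Tendsto (fun δ : ℝ => exp δ * (ε * (-(w ⬝ᵥ reactVec r')))) atTop atTop :=
        Real.tendsto_exp_atTop.atTop_mul_const (mul_pos hε (by linarith))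
      filter_upwards [h1.eventually_ge_atTop _] with δ hδ _ using hδ
    · exact Eventually.of_forall fun _ h' => absurd h' h
  filter_upwards [hev] with δ hδ x hx hval hex
  let h : (Fin d → ℕ) → ℝ := fun y => w ⬝ᵥ (fun i => (y i : ℝ))
  have hmpos : ∀ y : Fin d → ℕ, 0 < ∏ i, x i ^ y i := fun y =>
    Finset.prod_pos fun i _ => pow_pos (hx i) _
  have hdown : ∀ r ∈ R, 0 < w ⬝ᵥ reactVec r → ∃ r' ∈ R, w ⬝ᵥ reactVec r' < 0 ∧
      exp δ * ∏ i, x i ^ r.1 i ≤ ∏ i, x i ^ r'.1 i := by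
    intro r hr hpos
    rw [dot_reactVec] at hpos
    obtain ⟨z, z', hzz, h1, h2⟩ := path_cross h (h r.1) (hR r hr) (by simp only [h]; linarith)
      le_rfl
    refine ⟨(z, z'), hzz, ?_, ?_⟩
    · rw [dot_reactVec]; simp only [h] at h1 h2; linarith
    · have h3 := hval _ (mem_srcDiff hr hzz) (by
        rw [dot_reactVec]; simp only [h] at h1; linarith)
      rw [dot_reactVec] at h3
      rw [monomial_eq hx, monomial_eq hx, ← Real.exp_add]
      exact exp_le_exp.2 (by linarith)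
  let a : (Fin d → ℕ) × (Fin d → ℕ) → ℝ :=
    fun r => ε * (∏ i, x i ^ r.1 i) * max (-(w ⬝ᵥ reactVec r)) 0
  have ha0 : ∀ r, 0 ≤ a r := fun r =>
    mul_nonneg (mul_pos hε (hmpos _)).le (le_max_right _ _)
  have haD : ∀ r ∈ R, a r ≤ ∑ r ∈ R, a r := fun r hr =>
    Finset.single_le_sum (f := a) (fun r _ => ha0 r) hr
  have hapos : ∀ r, w ⬝ᵥ reactVec r < 0 → 0 < a r := fun r hr =>
    mul_pos (mul_pos hε (hmpos _)) (lt_max_of_lt_left (by linarith))
  have hD : 0 < ∑ r ∈ R, a r := by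
    obtain ⟨r, hr, hne⟩ := hex
    rcases lt_or_gt_of_ne hne with hlt | hgt
    · exact (hapos r hlt).trans_le (haD r hr)
    · obtain ⟨r', hr', hlt, -⟩ := hdown r hr hgt
      exact (hapos r' hlt).trans_le (haD r' hr')
  have hn : (0 : ℝ) < R.card := by
    obtain ⟨r, hr, -⟩ := hex
    exact_mod_cast Finset.card_pos.2 ⟨r, hr⟩
  have hterm : ∀ r ∈ R, (if 0 < w ⬝ᵥ reactVec r then ε⁻¹ else ε) * (∏ i, x i ^ r.1 i) *
      (w ⬝ᵥ reactVec r) + a r ≤ (∑ r ∈ R, a r) / (2 * R.card) := by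
    intro r hr
    split_ifs with hp
    · obtain ⟨r', hr', hlt, hle⟩ := hdown r hr hp
      have e1 : a r = 0 := by
        simp only [a]; rw [max_eq_right (by linarith), mul_zero]
      have e2 : a r' = ε * (∏ i, x i ^ r'.1 i) * (-(w ⬝ᵥ reactVec r')) := by
        simp only [a]; rw [max_eq_left (by linarith)]
      rw [e1, add_zero, le_div_iff₀ (by linarith)]
      refine le_trans ?_ (haD r' hr')
      have k1 := mul_le_mul_of_nonneg_left (hδ r hr r' hr' hlt) (hmpos r.1).le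
      have k2 := mul_le_mul_of_nonneg_right hle
        (mul_pos hε (show 0 < -(w ⬝ᵥ reactVec r') by linarith)).le
      rw [e2]
      nlinarith
    · have e1 : a r = ε * (∏ i, x i ^ r.1 i) * (-(w ⬝ᵥ reactVec r)) := by
        simp only [a]; rw [max_eq_left (by linarith [not_lt.1 hp])]
      rw [e1]
      have : 0 ≤ (∑ r ∈ R, a r) / (2 * R.card) := div_nonneg hD.le (by linarith)
      linarith
  have hsum := Finset.sum_le_card_nsmul R _ _ hterm
  rw [Finset.sum_add_distrib, nsmul_eq_mul] at hsum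
  have e3 : (R.card : ℝ) * ((∑ r ∈ R, a r) / (2 * R.card)) = (∑ r ∈ R, a r) / 2 := by
    field_simp
  rw [e3] at hsum
  unfold worst
  linarith

end Vale.Agent.P072
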