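import Mathlib.Analysis.Calculus.Deriv.Basic
import Mathlib.MeasureTheory.Integral.IntervalIntegral.Basic

namespace Vale.Agent.P072

/-- The reaction vector `y' - y` of a reaction `r = (y, y')`. -/
def reactVec {d : ℕ} (r : (Fin d → ℕ) × (Fin d → ℕ)) : Fin d → ℝ :=
  fun i => (r.2 i : ℝ) - (r.1 i : ℝ)

/-- The mass-action vector field `f(x) = ∑_{y → y'} k_{y → y'} x^y (y' - y)`. -/
noncomputable def massAction {d : ℕ} (R : Finset ((Fin d → ℕ) × (Fin d → ℕ)))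
    (k : (Fin d → ℕ) × (Fin d → ℕ) → ℝ) (x : Fin d → ℝ) : Fin d → ℝ :=
  ∑ r ∈ R, (k r * ∏ i, x i ^ r.1 i) • reactVec r

/-- Weak reversibility: for every reaction `y → y'` there is a directed path from `y'` to `y`. -/
def WeaklyReversible {d : ℕ} (R : Finset ((Fin d → ℕ) × (Fin d → ℕ))) : Prop :=
  ∀ r ∈ R, Relation.ReflTransGen (fun y y' => (y, y') ∈ R) r.2 r.1

/-- The positive stoichiometric class `(c + S) ∩ ℝ^d_{>0}`. -/
def posClass {d : ℕ} (R : Finset ((Fin d → ℕ) × (Fin d → ℕ))) (c : Fin d → ℝ) :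
    Set (Fin d → ℝ) :=
  {x | x - c ∈ Submodule.span ℝ (reactVec '' (R : Set ((Fin d → ℕ) × (Fin d → ℕ)))) ∧
    ∀ i, 0 < x i}

/-- `x` solves `x' = f(x)` on the time set `I` (one-sided derivative at an endpoint). -/
def IsSolutionOn {d : ℕ} (f : (Fin d → ℝ) → (Fin d → ℝ)) (I : Set ℝ) (x : ℝ → Fin d → ℝ) :
    Prop :=
  ∀ t ∈ I, HasDerivWithinAt x (f (x t)) I t

/-- Permanence of `x' = f(x)` on `P`: there is a compact `K ⊆ P` such that from every point of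
`P` there starts a solution on `[0, ∞)` that stays in `P`, lies in `K` for all large times, and
extends every solution on any `[0, b)` with the same initial point. -/
def PermanentOn {d : ℕ} (f : (Fin d → ℝ) → (Fin d → ℝ)) (P : Set (Fin d → ℝ)) : Prop :=
  ∃ K : Set (Fin d → ℝ), IsCompact K ∧ K ⊆ P ∧ ∀ x₀ ∈ P, ∃ x : ℝ → Fin d → ℝ,
    x 0 = x₀ ∧ IsSolutionOn f (Set.Ici 0) x ∧ (∀ t, 0 ≤ t → x t ∈ P) ∧
    (∀ᶠ t in Filter.atTop, x t ∈ K) ∧
    ∀ (b : ℝ) (z : ℝ → Fin d → ℝ), z 0 = x₀ → IsSolutionOn f (Set.Ico 0 b) z →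
      ∀ t ∈ Set.Ico 0 b, z t = x t

/-- `x` is a Caratheodory solution of `x' = F(t, x)` on the time set `I` in integral form:
it is continuous on `I` and `x(t) = x(0) + ∫_0^t F(s, x(s)) ds` for `t ∈ I`. -/
def IsIntegralSolutionOn {d : ℕ} (F : ℝ → (Fin d → ℝ) → (Fin d → ℝ)) (I : Set ℝ)
    (x : ℝ → Fin d → ℝ) : Prop :=
  ContinuousOn x I ∧ ∀ t ∈ I,
    IntervalIntegrable (fun s => F s (x s)) MeasureTheory.volume 0 t ∧
      x t = x 0 + ∫ s in (0 : ℝ)..t, F s (x s)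

end Vale.Agent.P072
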