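import Vale.Agent.P072.Sorted
import Mathlib.Data.Fin.Tuple.Sort
import Mathlib.Analysis.SpecialFunctions.Log.Basic

/-!
The symmetric family of linear constraints: active normals are sign-compatible with `log x`.
-/

namespace Vale.Agent.P072

open Filter Set Real

variable {d : ℕ}

lemma tol_exists (V : Finset (Fin d → ℝ)) (a : Fin d → ℝ) :
    ∃ η > 0, ∀ v ∈ V, ∀ π : Equiv.Perm (Fin d), 0 < a ⬝ᵥ (v ∘ π) →
      η * ∑ l, |(v ∘ π) l| ≤ a ⬝ᵥ (v ∘ π) / 2 := by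
  have h : ∀ᶠ η : ℝ in nhdsWithin 0 (Ioi 0), ∀ v ∈ V, ∀ π : Equiv.Perm (Fin d),
      0 < a ⬝ᵥ (v ∘ π) → η * ∑ l, |(v ∘ π) l| ≤ a ⬝ᵥ (v ∘ π) / 2 := by
    refine (eventually_all_finset V).2 fun v _ => eventually_all.2 fun π => ?_
    by_cases hp : 0 < a ⬝ᵥ (v ∘ π)
    · have h1 : Tendsto (fun η : ℝ => η * ∑ l, |(v ∘ π) l|) (nhdsWithin 0 (Ioi 0))
          (nhds (0 * ∑ l, |(v ∘ π) l|)) :=
        (tendsto_id.mul_const _).mono_left nhdsWithin_le_nhds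
      rw [zero_mul] at h1
      filter_upwards [h1.eventually (gt_mem_nhds (half_pos hp))] with η hη _ using hη.le
    · exact Eventually.of_forall fun _ h => absurd h hp
  obtain ⟨η, h1, h2⟩ := (h.and self_mem_nhdsWithin).exists
  exact ⟨η, h2, h1⟩

lemma sort_active {a z : Fin d → ℝ} (ha : Antitone a)
    (hmax : ∀ ρ : Equiv.Perm (Fin d), a ⬝ᵥ (z ∘ ρ) ≤ a ⬝ᵥ z) :
    ∃ σ : Equiv.Perm (Fin d), a ∘ σ = a ∧ Antitone (z ∘ σ) := by
  have hswap : ∀ k l, a l < a k → z l ≤ z k := by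
    intro k l hkl
    have hne : k ≠ l := fun h => by subst h; exact lt_irrefl _ hkl
    have h1 := hmax (Equiv.swap k l)
    have h2 : a ⬝ᵥ z - a ⬝ᵥ (z ∘ Equiv.swap k l) = (a k - a l) * (z k - z l) := by
      rw [← dotProduct_sub]
      unfold dotProduct
      rw [Finset.sum_eq_add_of_mem k l (Finset.mem_univ _) (Finset.mem_univ _) hne]
      · simp only [Pi.sub_apply, Function.comp, Equiv.swap_apply_left, Equiv.swap_apply_right]
        ring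
      · intro c _ hc
        simp [Equiv.swap_apply_of_ne_of_ne hc.1 hc.2]
    by_contra hcon
    push Not at hcon
    nlinarith
  let f : Fin d → Lex (ℝ × ℝ) := fun k => toLex (-a k, -z k)
  have hm := Tuple.monotone_sort f
  have h1 : Antitone (a ∘ Tuple.sort f) := by
    intro k l hkl
    have := hm hkl
    simp only [Function.comp, f, Prod.Lex.toLex_le_toLex] at this ⊢
    rcases this with h | h
    · linarith
    · linarith [h.1]
  refine ⟨Tuple.sort f, ?_, ?_⟩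
  · have h2 : Antitone (a ∘ (1 : Equiv.Perm (Fin d))) := by simpa using ha
    simpa using Tuple.unique_antitone h1 h2
  · intro k l hkl
    have := hm hkl
    simp only [Function.comp, f, Prod.Lex.toLex_le_toLex] at this ⊢
    rcases this with h | h
    · exact hswap _ _ (by linarith)
    · linarith [h.2]

theorem key_exists (hd : 1 ≤ d) (V : Finset (Fin d → ℝ)) :
    ∃ W : Set ((Fin d → ℝ) × (ℝ → ℝ)), W.Finite ∧ (∀ z ∈ W, ContDiff ℝ 1 z.2) ∧
      (∀ x : Fin d → ℝ, (∀ i, 0 < x i) → ∀ᶠ T : ℝ in atTop, ∀ z ∈ W, z.1 ⬝ᵥ x < z.2 T) ∧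
      (∀ᶠ T : ℝ in atTop, ∀ x : Fin d → ℝ, (∀ i, 0 < x i) → (∀ z ∈ W, z.1 ⬝ᵥ x ≤ z.2 T) →
        ∀ i, exp (T * (-2)) ≤ x i ∧ x i ≤ exp (T * 2)) ∧
      (∀ δ : ℝ, ∀ᶠ T : ℝ in atTop, ∀ x : Fin d → ℝ, (∀ i, 0 < x i) →
        (∀ z ∈ W, z.1 ⬝ᵥ x ≤ z.2 T) → ∀ z ∈ W, z.1 ⬝ᵥ x = z.2 T →
          ∀ v ∈ V, 0 < z.1 ⬝ᵥ v → δ ≤ (fun i => log (x i)) ⬝ᵥ v) := by
  choose ε hε hεV using tol_exists V
  obtain ⟨A, hAfin, μ, hμ, hA1, hA2, hA3⟩ := sorted_exists hd ε hε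
  let sy : Equiv.Perm (Fin d) → (Fin d → ℝ) × (ℝ → ℝ) → (Fin d → ℝ) × (ℝ → ℝ) :=
    fun π z => (z.1 ∘ π.symm, z.2)
  have hdot : ∀ (π : Equiv.Perm (Fin d)) z (x : Fin d → ℝ),
      (sy π z).1 ⬝ᵥ x = z.1 ⬝ᵥ (x ∘ π) := fun π z x => comp_equiv_symm_dotProduct _ _ _
  have hall : ∀ (T : ℝ) (x : Fin d → ℝ), (∀ z ∈ ⋃ π, sy π '' A, z.1 ⬝ᵥ x ≤ z.2 T) →
      ∀ π : Equiv.Perm (Fin d), ∀ z ∈ A, z.1 ⬝ᵥ (x ∘ π) ≤ z.2 T := by
    intro T x h π z hz
    rw [← hdot]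
    exact h _ (mem_iUnion.2 ⟨π, z, hz, rfl⟩)
  refine ⟨⋃ π, sy π '' A, finite_iUnion fun π => hAfin.image _, ?_, ?_, ?_, ?_⟩
  · intro z0 hz0
    obtain ⟨π, z, hz, rfl⟩ := mem_iUnion.1 hz0
    exact (hA1 z hz).2
  · intro x hx
    have := eventually_all.2 fun π : Equiv.Perm (Fin d) => hA2 (x ∘ π) (fun l => hx _)
    filter_upwards [this] with T hT z0 hz0
    obtain ⟨π, z, hz, rfl⟩ := mem_iUnion.1 hz0
    rw [hdot]
    exact hT π z hz
  · filter_upwards [hA3] with T hT x hx hK i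
    have hm := Tuple.monotone_sort (fun k => -x k)
    have h1 : Antitone (x ∘ Tuple.sort (fun k => -x k)) := by
      intro k l hkl
      have := hm hkl
      simp only [Function.comp] at this ⊢
      linarith
    have := (hT _ h1 (fun l => hx _) (hall T x hK _)).1
      ((Tuple.sort (fun k => -x k)).symm i)
    simpa using this
  · intro δ
    have e1 : ∀ᶠ T : ℝ in atTop, ∀ z ∈ A, ∀ v ∈ V, ∀ π : Equiv.Perm (Fin d),
        0 < z.1 ⬝ᵥ (v ∘ π) → δ ≤ μ * T * (z.1 ⬝ᵥ (v ∘ π) / 2) := by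
      refine (eventually_all_finite hAfin).2 fun z _ =>
        (eventually_all_finset V).2 fun v _ => eventually_all.2 fun π => ?_
      by_cases hp : 0 < z.1 ⬝ᵥ (v ∘ π)
      · have h1 : Tendsto (fun T : ℝ => μ * T * (z.1 ⬝ᵥ (v ∘ π) / 2)) atTop atTop :=
          (tendsto_id.const_mul_atTop hμ).atTop_mul_const (half_pos hp)
        filter_upwards [h1.eventually_ge_atTop δ] with T hT _ using hT
      · exact Eventually.of_forall fun _ h => absurd h hp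
    filter_upwards [hA3, e1, eventually_ge_atTop (0 : ℝ)] with T hT hδ hT0 x hx hK z0 hz0 hact
      v hv hpos
    obtain ⟨π, z, hz, rfl⟩ := mem_iUnion.1 hz0
    rw [hdot] at hact hpos
    have hact' : z.1 ⬝ᵥ (x ∘ π) = z.2 T := hact
    obtain ⟨σ, hσ1, hσ2⟩ := sort_active (z := x ∘ π) (hA1 z hz).1 (fun ρ => by
      rw [hact']
      exact hall T x hK (ρ.trans π) z hz)
    have hdσ : ∀ u : Fin d → ℝ, z.1 ⬝ᵥ (u ∘ σ) = z.1 ⬝ᵥ u := fun u => by
      conv_lhs => rw [← hσ1]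
      exact comp_equiv_dotProduct_comp_equiv _ _ _
    obtain ⟨S, hS, hclose⟩ := (hT _ hσ2 (fun l => hx _) (hall T x hK (σ.trans π))).2 z hz
      (by rw [hdσ]; exact hact')
    have hS0 : 0 ≤ S := (mul_nonneg hμ.le hT0).trans hS
    have hpos' : 0 < z.1 ⬝ᵥ (v ∘ (σ.trans π)) := by
      have : v ∘ (σ.trans π) = (v ∘ π) ∘ σ := rfl
      rw [this, hdσ]; exact hpos
    have k1 := hδ z hz v hv _ hpos'
    have k2 := hεV z.1 v hv _ hpos'
    have k3 : (fun i => log (x i)) ⬝ᵥ v =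
        ((fun i => log (x i)) ∘ (σ.trans π)) ⬝ᵥ (v ∘ (σ.trans π)) :=
      (comp_equiv_dotProduct_comp_equiv _ _ _).symm
    have k4 : S * (z.1 ⬝ᵥ (v ∘ (σ.trans π))) - S * (ε z.1 * ∑ l, |(v ∘ (σ.trans π)) l|) ≤
        ((fun i => log (x i)) ∘ (σ.trans π)) ⬝ᵥ (v ∘ (σ.trans π)) := by
      unfold dotProduct
      rw [Finset.mul_sum, Finset.mul_sum, Finset.mul_sum, ← Finset.sum_sub_distrib]
      refine Finset.sum_le_sum fun l _ => ?_
      have hxl : 0 < x (π (σ l)) := hx _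
      have m1 : S * (z.1 l - ε z.1) ≤ log (x (π (σ l))) :=
        (le_log_iff_exp_le hxl).2 (hclose l).1
      have m2 : log (x (π (σ l))) ≤ S * (z.1 l + ε z.1) :=
        (log_le_iff_le_exp hxl).2 (hclose l).2
      simp only [Function.comp, Equiv.trans_apply]
      rcases le_total 0 (v (π (σ l))) with h | h
      · rw [abs_of_nonneg h]; nlinarith
      · rw [abs_of_nonpos h]; nlinarith
    have k5 : μ * T * (z.1 ⬝ᵥ (v ∘ (σ.trans π)) / 2) ≤ S * (z.1 ⬝ᵥ (v ∘ (σ.trans π)) / 2) :=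
      mul_le_mul_of_nonneg_right hS (half_pos hpos').le
    have k6 := mul_le_mul_of_nonneg_left k2 hS0
    rw [k3]
    linarith

end Vale.Agent.P072
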