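import Mathlib.MeasureTheory.Integral.IntervalIntegral.FundThmCalculus
import Mathlib.MeasureTheory.Integral.DominatedConvergence
import Mathlib.Analysis.SpecialFunctions.ExpDeriv
import Mathlib.Topology.MetricSpace.Contracting
import Mathlib.Topology.ContinuousMap.Bounded.Normed

/-!
Existence and uniqueness of integral solutions for bounded Lipschitz fields.
-/

namespace Vale.Agent.P072

open Filter Set Real MeasureTheory

variable {E : Type*} [NormedAddCommGroup E] [NormedSpace ℝ E]

lemma int_exp_bound {g : ℝ → E} {τ C lam : ℝ} (hτ : 0 ≤ τ) (hC : 0 ≤ C) (hlam : 0 < lam)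
    (h : ∀ s ∈ Ioc 0 τ, ‖g s‖ ≤ C * exp (lam * s)) :
    ‖∫ s in (0 : ℝ)..τ, g s‖ ≤ C * exp (lam * τ) / lam := by
  have hd : ∀ s ∈ uIcc 0 τ, HasDerivAt (fun s => C * exp (lam * s) / lam)
      (C * exp (lam * s)) s := by
    intro s _
    have h1 := ((((hasDerivAt_id' s).const_mul lam).exp).const_mul C).div_const lam
    refine h1.congr_deriv ?_
    field_simp
  have hc : Continuous fun s => C * exp (lam * s) := by fun_prop
  refine (intervalIntegral.norm_integral_le_of_norm_le hτ (Eventually.of_forall h)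
    (hc.intervalIntegrable _ _)).trans ?_
  rw [intervalIntegral.integral_eq_sub_of_hasDerivAt hd (hc.intervalIntegrable _ _)]
  have : 0 ≤ C * exp (lam * 0) / lam := by positivity
  linarith

theorem integral_sol_unique {F : ℝ → E → E} {L : ℝ} (hL : 0 ≤ L) {t : ℝ} (ht : 0 ≤ t)
    {x z : ℝ → E} (hx : ContinuousOn x (Icc 0 t)) (hz : ContinuousOn z (Icc 0 t))
    (hlip : ∀ s ∈ Icc 0 t, ‖F s (x s) - F s (z s)‖ ≤ L * ‖x s - z s‖)
    (hxi : ∀ s ∈ Icc 0 t, IntervalIntegrable (fun u => F u (x u)) volume 0 s ∧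
      x s = x 0 + ∫ u in (0 : ℝ)..s, F u (x u))
    (hzi : ∀ s ∈ Icc 0 t, IntervalIntegrable (fun u => F u (z u)) volume 0 s ∧
      z s = z 0 + ∫ u in (0 : ℝ)..s, F u (z u))
    (h0 : x 0 = z 0) : x t = z t := by
  set lam := 2 * L + 1 with hlam
  have hlam0 : 0 < lam := by linarith
  have hg : ContinuousOn (fun s => exp (-(lam * s)) * ‖x s - z s‖) (Icc 0 t) :=
    (by fun_prop : Continuous fun s => exp (-(lam * s))).continuousOn.mul (hx.sub hz).norm
  obtain ⟨s0, hs0, hmax⟩ := isCompact_Icc.exists_isMaxOn ⟨0, left_mem_Icc.2 ht⟩ hg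
  set D := exp (-(lam * s0)) * ‖x s0 - z s0‖ with hD
  have hD0 : 0 ≤ D := by positivity
  have hb : ∀ s ∈ Icc 0 t, ‖x s - z s‖ ≤ D * exp (lam * s) := by
    intro s hs
    have h1 : exp (-(lam * s)) * ‖x s - z s‖ ≤ D := hmax hs
    have h2 : ‖x s - z s‖ = exp (-(lam * s)) * ‖x s - z s‖ * exp (lam * s) := by
      rw [mul_right_comm, ← Real.exp_add]; simp
    rw [h2]
    exact mul_le_mul_of_nonneg_right h1 (exp_pos _).le
  have h3 : x s0 - z s0 = ∫ u in (0 : ℝ)..s0, (F u (x u) - F u (z u)) := by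
    rw [intervalIntegral.integral_sub (hxi s0 hs0).1 (hzi s0 hs0).1]
    conv_lhs => rw [(hxi s0 hs0).2, (hzi s0 hs0).2, h0]
    abel
  have h4 : ‖x s0 - z s0‖ ≤ L * D * exp (lam * s0) / lam := by
    rw [h3]
    refine int_exp_bound hs0.1 (mul_nonneg hL hD0) hlam0 fun s hs => ?_
    have hs' : s ∈ Icc 0 t := ⟨hs.1.le, hs.2.trans hs0.2⟩
    refine (hlip s hs').trans ?_
    rw [mul_assoc]
    exact mul_le_mul_of_nonneg_left (hb s hs') hL
  have h5 : D ≤ L * D / lam := by
    have := mul_le_mul_of_nonneg_left h4 (exp_pos (-(lam * s0))).le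
    refine this.trans (le_of_eq ?_)
    rw [Real.exp_neg]
    have := (exp_pos (lam * s0)).ne'
    field_simp
  have h6 : D ≤ 0 := by
    rw [le_div_iff₀ hlam0] at h5
    nlinarith
  have h7 := hb t (right_mem_Icc.2 ht)
  have h8 : ‖x t - z t‖ ≤ 0 := h7.trans (mul_nonpos_of_nonpos_of_nonneg h6 (exp_pos _).le)
  exact sub_eq_zero.1 (norm_le_zero_iff.1 h8)

theorem integral_sol_exists [CompleteSpace E] {F : ℝ → E → E} {L M : ℝ} (hL : 0 ≤ L)
    (hmeas : ∀ x : ℝ → E, Continuous x → AEStronglyMeasurable (fun s => F s (x s)) volume)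
    (hbd : ∀ s x, ‖F s x‖ ≤ M) (hlip : ∀ s x y, ‖F s x - F s y‖ ≤ L * ‖x - y‖) (x₀ : E) :
    ∃ x : ℝ → E, Continuous x ∧ x 0 = x₀ ∧
      (∀ a b, IntervalIntegrable (fun s => F s (x s)) volume a b) ∧
      ∀ t, 0 ≤ t → x t = x₀ + ∫ s in (0 : ℝ)..t, F s (x s) := by
  set lam := 2 * L + 1 with hlam
  have hlam0 : 0 < lam := by linarith
  have hM : 0 ≤ M := (norm_nonneg _).trans (hbd 0 x₀)
  have hint : ∀ x : ℝ → E, Continuous x → ∀ a b,
      IntervalIntegrable (fun s => F s (x s)) volume a b := fun x hx a b =>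
    ⟨Measure.integrableOn_of_bounded measure_Ioc_lt_top.ne (hmeas x hx)
        (Eventually.of_forall fun s => hbd s _),
      Measure.integrableOn_of_bounded measure_Ioc_lt_top.ne (hmeas x hx)
        (Eventually.of_forall fun s => hbd s _)⟩
  let u : BoundedContinuousFunction ℝ E → ℝ → E := fun z s => x₀ + exp (lam * s) • z s
  have hu : ∀ z, Continuous (u z) := fun z => by
    simp only [u]; fun_prop
  let G : BoundedContinuousFunction ℝ E → ℝ → E := fun z t =>
    exp (-(lam * max t 0)) • ∫ s in (0 : ℝ)..(max t 0), F s (u z s)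
  have hG : ∀ z, Continuous (G z) := fun z => by
    have h1 := intervalIntegral.continuous_primitive (hint _ (hu z)) 0
    exact (by fun_prop : Continuous fun t : ℝ => exp (-(lam * max t 0))).smul
      (h1.comp (by fun_prop : Continuous fun t : ℝ => max t 0))
  have hGb : ∀ z t, ‖G z t‖ ≤ M / lam := fun z t => by
    have h1 : ‖∫ s in (0 : ℝ)..(max t 0), F s (u z s)‖ ≤ M * exp (lam * max t 0) / lam := by
      refine int_exp_bound (le_max_right _ _) hM hlam0 fun s hs => (hbd _ _).trans ?_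
      have : 1 ≤ exp (lam * s) := Real.one_le_exp (mul_pos hlam0 hs.1).le
      nlinarith
    simp only [G]
    rw [norm_smul, Real.norm_of_nonneg (exp_pos _).le]
    refine (mul_le_mul_of_nonneg_left h1 (exp_pos _).le).trans (le_of_eq ?_)
    rw [Real.exp_neg]
    have := (exp_pos (lam * max t 0)).ne'
    field_simp
  let Φ : BoundedContinuousFunction ℝ E → BoundedContinuousFunction ℝ E := fun z =>
    BoundedContinuousFunction.ofNormedAddCommGroup (G z) (hG z) _ (hGb z)
  have hΦ : ContractingWith (1 / 2) Φ := by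
    refine ⟨by norm_num, LipschitzWith.of_dist_le_mul fun z z' => ?_⟩
    rw [BoundedContinuousFunction.dist_le (by positivity)]
    intro t
    have hD0 : 0 ≤ dist z z' := dist_nonneg
    have h1 : ‖∫ s in (0 : ℝ)..(max t 0), (F s (u z s) - F s (u z' s))‖ ≤
        L * dist z z' * exp (lam * max t 0) / lam := by
      refine int_exp_bound (le_max_right _ _) (mul_nonneg hL hD0) hlam0 fun s _ =>
        (hlip _ _ _).trans ?_
      rw [mul_assoc]
      refine mul_le_mul_of_nonneg_left ?_ hL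
      have : u z s - u z' s = exp (lam * s) • (z s - z' s) := by
        simp only [u, smul_sub]; abel
      rw [this, norm_smul, Real.norm_of_nonneg (exp_pos _).le, mul_comm, ← dist_eq_norm]
      exact mul_le_mul_of_nonneg_right (BoundedContinuousFunction.dist_coe_le_dist s)
        (exp_pos _).le
    show dist (G z t) (G z' t) ≤ _
    simp only [G]
    rw [dist_eq_norm, ← smul_sub,
      ← intervalIntegral.integral_sub (hint _ (hu z) _ _) (hint _ (hu z') _ _), norm_smul,
      Real.norm_of_nonneg (exp_pos _).le]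
    refine (mul_le_mul_of_nonneg_left h1 (exp_pos _).le).trans ?_
    have e1 : exp (-(lam * max t 0)) * (L * dist z z' * exp (lam * max t 0) / lam) =
        L * dist z z' / lam := by
      rw [Real.exp_neg]
      have := (exp_pos (lam * max t 0)).ne'
      field_simp
    rw [e1, div_le_iff₀ hlam0]
    push_cast
    nlinarith
  have hfix : Φ (hΦ.fixedPoint Φ) = hΦ.fixedPoint Φ := hΦ.fixedPoint_isFixedPt
  set z := hΦ.fixedPoint Φ with hz
  have hsol : ∀ t, 0 ≤ t → u z t = x₀ + ∫ s in (0 : ℝ)..t, F s (u z s) := by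
    intro t ht
    have h1 : z t = G z t := by
      conv_lhs => rw [← hfix]
      rfl
    show x₀ + exp (lam * t) • z t = _
    rw [h1]
    simp only [G, max_eq_left ht]
    rw [smul_smul, ← Real.exp_add]
    simp
  refine ⟨u z, hu z, ?_, hint _ (hu z), hsol⟩
  simpa using hsol 0 le_rfl

end Vale.Agent.P072
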