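import Vale.Agent.P072.Key
import Vale.Agent.P072.Barrier
import Vale.Agent.P072.Ode

/-!
Permanence of weakly reversible mass-action systems.
-/

namespace Vale.Agent.P072

open Filter Set Real MeasureTheory Topology

variable {d : ℕ}

lemma massAction_mem (R : Finset ((Fin d → ℕ) × (Fin d → ℕ)))
    (k : (Fin d → ℕ) × (Fin d → ℕ) → ℝ) (x : Fin d → ℝ) :
    massAction R k x ∈
      Submodule.span ℝ (reactVec '' (R : Set ((Fin d → ℕ) × (Fin d → ℕ)))) :=
  Submodule.sum_mem _ fun r hr =>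
    Submodule.smul_mem _ _ (Submodule.subset_span ⟨r, hr, rfl⟩)

/-- Coordinatewise truncation. -/
noncomputable def clamp (lo hi : ℝ) (x : Fin d → ℝ) : Fin d → ℝ :=
  fun i => max lo (min (x i) hi)

lemma clamp_mem {lo hi : ℝ} (h : lo ≤ hi) (x : Fin d → ℝ) (i : Fin d) :
    lo ≤ clamp lo hi x i ∧ clamp lo hi x i ≤ hi :=
  ⟨le_max_left _ _, max_le h (min_le_right _ _)⟩

lemma clamp_eq {lo hi : ℝ} {x : Fin d → ℝ} (h : ∀ i, lo ≤ x i ∧ x i ≤ hi) :
    clamp lo hi x = x := by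
  funext i
  simp only [clamp]
  rw [min_eq_left (h i).2, max_eq_right (h i).1]

lemma clamp_lip (lo hi : ℝ) (x y : Fin d → ℝ) :
    ‖clamp lo hi x - clamp lo hi y‖ ≤ ‖x - y‖ := by
  refine (pi_norm_le_iff_of_nonneg (norm_nonneg _)).2 fun i => ?_
  have h1 : |x i - y i| ≤ ‖x - y‖ := norm_le_pi_norm (x - y) i
  show |max lo (min (x i) hi) - max lo (min (y i) hi)| ≤ _
  refine (abs_max_sub_max_le_max _ _ _ _).trans (max_le (by simp) ?_)
  refine (abs_min_sub_min_le_max _ _ _ _).trans (max_le h1 (by simp))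

lemma clamp_continuous (lo hi : ℝ) : Continuous (clamp lo hi : (Fin d → ℝ) → Fin d → ℝ) := by
  unfold clamp
  fun_prop

lemma massAction_bounds (R : Finset ((Fin d → ℕ) × (Fin d → ℕ))) {ε lo hi : ℝ} (hε : 0 < ε)
    (hlo : 0 ≤ lo) : ∃ L M : ℝ, 0 ≤ L ∧ ∀ k : (Fin d → ℕ) × (Fin d → ℕ) → ℝ,
      (∀ r ∈ R, ε ≤ k r ∧ k r ≤ ε⁻¹) →
      (∀ x : Fin d → ℝ, (∀ i, lo ≤ x i ∧ x i ≤ hi) → ‖massAction R k x‖ ≤ M) ∧
      ∀ x y : Fin d → ℝ, (∀ i, lo ≤ x i ∧ x i ≤ hi) → (∀ i, lo ≤ y i ∧ y i ≤ hi) →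
        ‖massAction R k x - massAction R k y‖ ≤ L * ‖x - y‖ := by
  have hlip : ∀ r : (Fin d → ℕ) × (Fin d → ℕ), ∃ K, LipschitzOnWith K
      (fun x : Fin d → ℝ => ∏ i, x i ^ r.1 i) (Icc (fun _ => lo) (fun _ => hi)) := by
    intro r
    have : ContDiff ℝ 1 (fun x : Fin d → ℝ => ∏ i, x i ^ r.1 i) := by fun_prop
    exact this.contDiffOn.exists_lipschitzOnWith one_ne_zero (convex_Icc _ _) isCompact_Icc
  choose K hK using hlip
  have hε' : 0 < ε⁻¹ := inv_pos.2 hε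
  refine ⟨∑ r ∈ R, ε⁻¹ * K r * ‖reactVec r‖, ∑ r ∈ R, ε⁻¹ * (∏ i, hi ^ r.1 i) * ‖reactVec r‖,
    Finset.sum_nonneg fun r _ => by positivity, fun k hk => ⟨fun x hx => ?_, fun x y hx hy => ?_⟩⟩
  · unfold massAction
    refine (norm_sum_le _ _).trans (Finset.sum_le_sum fun r hr => ?_)
    have hk0 : 0 ≤ k r := hε.le.trans (hk r hr).1
    have hm : 0 ≤ ∏ i, x i ^ r.1 i :=
      Finset.prod_nonneg fun i _ => pow_nonneg (hlo.trans (hx i).1) _
    rw [norm_smul, Real.norm_of_nonneg (mul_nonneg hk0 hm)]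
    refine mul_le_mul_of_nonneg_right (mul_le_mul (hk r hr).2 ?_ hm hε'.le) (norm_nonneg _)
    exact Finset.prod_le_prod (fun i _ => pow_nonneg (hlo.trans (hx i).1) _)
      fun i _ => pow_le_pow_left₀ (hlo.trans (hx i).1) (hx i).2 _
  · unfold massAction
    rw [← Finset.sum_sub_distrib, Finset.sum_mul]
    refine (norm_sum_le _ _).trans (Finset.sum_le_sum fun r hr => ?_)
    have hk0 : 0 ≤ k r := hε.le.trans (hk r hr).1
    rw [← sub_smul, ← mul_sub, norm_smul, norm_mul, Real.norm_of_nonneg hk0]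
    have h1 := (hK r).dist_le_mul x ⟨fun i => (hx i).1, fun i => (hx i).2⟩
      y ⟨fun i => (hy i).1, fun i => (hy i).2⟩
    rw [dist_eq_norm, dist_eq_norm] at h1
    have h2 := mul_le_mul (hk r hr).2 h1 (norm_nonneg _) hε'.le
    have h3 := mul_le_mul_of_nonneg_right h2 (norm_nonneg (reactVec r))
    linarith

theorem strong_permanence (hd : 1 ≤ d) {R : Finset ((Fin d → ℕ) × (Fin d → ℕ))}
    (hR : WeaklyReversible R) {ε : ℝ} (hε : 0 < ε) {c : Fin d → ℝ} (hc : ∀ i, 0 < c i) :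
    ∃ K : Set (Fin d → ℝ), IsCompact K ∧ K ⊆ posClass R c ∧
      ∀ k : ℝ → (Fin d → ℕ) × (Fin d → ℕ) → ℝ, (∀ r ∈ R, Measurable fun t => k t r) →
        (∀ t, 0 ≤ t → ∀ r ∈ R, ε ≤ k t r ∧ k t r ≤ ε⁻¹) →
        ∀ x₀ ∈ posClass R c, ∃ x : ℝ → Fin d → ℝ, x 0 = x₀ ∧
          IsIntegralSolutionOn (fun t => massAction R (k t)) (Set.Ici 0) x ∧
          (∀ t, 0 ≤ t → x t ∈ posClass R c) ∧ (∀ᶠ t in Filter.atTop, x t ∈ K) ∧
          ∀ (b : ℝ) (z : ℝ → Fin d → ℝ), z 0 = x₀ →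
            IsIntegralSolutionOn (fun t => massAction R (k t)) (Set.Ico 0 b) z →
            ∀ t ∈ Set.Ico 0 b, z t = x t := by
  set S := Submodule.span ℝ (reactVec '' (R : Set ((Fin d → ℕ) × (Fin d → ℕ)))) with hS
  obtain ⟨W, hW, hC, hin, hbox, hval⟩ := key_exists hd (srcDiff R)
  obtain ⟨δ, hδ⟩ := ((eventually_all_finite hW).2 fun z _ => chem hR hε z.1).exists
  obtain ⟨T0, hT0⟩ := eventually_atTop.1
    (((hin c hc).and (hbox.and (hval δ))).and (eventually_ge_atTop (0 : ℝ)))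
  have hT00 : 0 ≤ T0 := (hT0 T0 le_rfl).2
  have hneg : ∀ T, T0 ≤ T → ∀ x : Fin d → ℝ, (∀ i, 0 < x i) → x - c ∈ S →
      (∀ z ∈ W, z.1 ⬝ᵥ x ≤ z.2 T) → ∀ z ∈ W, z.1 ⬝ᵥ x = z.2 T → worst R ε z.1 x < 0 := by
    intro T hT x hx hxS hK z hz hact
    refine hδ z hz x hx ((hT0 T hT).1.2.2 x hx hK z hz hact) ?_
    by_contra hcon
    push Not at hcon
    have h1 : ∀ v ∈ S, z.1 ⬝ᵥ v = 0 := by
      intro v hv
      induction hv using Submodule.span_induction with
      | mem v hv =>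
        obtain ⟨r, hr, rfl⟩ := hv
        exact hcon r hr
      | zero => simp
      | add u v _ _ hu hv => rw [dotProduct_add, hu, hv, add_zero]
      | smul a v _ hv => rw [dotProduct_smul, hv, smul_zero]
    have h2 := h1 _ hxS
    have h3 := (hT0 T hT).1.1 z hz
    rw [dotProduct_sub] at h2
    linarith
  refine ⟨{x | x - c ∈ S} ∩ Icc (fun _ => exp (T0 * (-2))) (fun _ => exp (T0 * 2)), ?_, ?_, ?_⟩
  · refine isCompact_Icc.inter_left ?_
    exact S.closed_of_finiteDimensional.preimage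
      (by fun_prop : Continuous fun x : Fin d → ℝ => x - c)
  · exact fun x hx => ⟨hx.1, fun i => (exp_pos _).trans_le (hx.2.1 i)⟩
  intro k hkm hk x₀ hx₀
  obtain ⟨T1, hT1, hT01⟩ := ((hin x₀ hx₀.2).and (eventually_ge_atTop T0)).exists
  set lo := exp (T1 * (-2)) with hlo
  set hi := exp (T1 * 2) with hhi
  have hlo0 : 0 < lo := exp_pos _
  have hhi0 : 0 < hi := exp_pos _
  have hlohi : lo ≤ hi := exp_le_exp.2 (by linarith)
  have hbox' : ∀ T ∈ Icc T0 T1, ∀ x : Fin d → ℝ, (∀ i, 0 < x i) →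
      (∀ z ∈ W, z.1 ⬝ᵥ x ≤ z.2 T) → ∀ i, lo ≤ x i ∧ x i ≤ hi := by
    intro T hT x hx hK i
    have := (hT0 T hT.1).1.2.1 x hx hK i
    exact ⟨(exp_le_exp.2 (by linarith [hT.2])).trans this.1,
      this.2.trans (exp_le_exp.2 (by linarith [hT.2]))⟩
  obtain ⟨η, hη, hbar⟩ := barrier hW hC S c (worst R ε) (worst_continuous R ε) hT01 hlo0 hhi0
    hbox' (fun T hT => hneg T hT.1)
  obtain ⟨L, M, hL, hLM⟩ := massAction_bounds (hi := 2 * hi) R hε (half_pos hlo0).le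
  have hθ : ∀ s, 0 ≤ s → max T0 (T1 - η * s) ∈ Icc T0 T1 := fun s hs =>
    ⟨le_max_left _ _, max_le hT01 (by nlinarith)⟩
  let F : ℝ → (Fin d → ℝ) → (Fin d → ℝ) :=
    fun s x => massAction R (k (max s 0)) (clamp (lo / 2) (2 * hi) x)
  have hcl := fun x : Fin d → ℝ => clamp_mem (show lo / 2 ≤ 2 * hi by linarith) x
  obtain ⟨x, hxc, hx0, hxi, hxs⟩ := integral_sol_exists (F := F) (M := M) hL
    (fun x hx => by
      simp only [F, massAction]
      refine Finset.aestronglyMeasurable_fun_sum _ fun r hr => ?_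
      refine AEStronglyMeasurable.smul_const (Measurable.aestronglyMeasurable ?_) _
      refine ((hkm r hr).comp (by fun_prop : Measurable fun s : ℝ => max s 0)).mul
        (Continuous.measurable ?_)
      have := (clamp_continuous (lo / 2) (2 * hi)).comp hx
      exact continuous_finsetProd _ fun i _ => ((continuous_apply i).comp this).pow _)
    (fun s x => (hLM _ (hk _ (le_max_right _ _))).1 _ (hcl x))
    (fun s x y => ((hLM _ (hk _ (le_max_right _ _))).2 _ _ (hcl x) (hcl y)).trans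
      (mul_le_mul_of_nonneg_left (clamp_lip _ _ _ _) hL)) x₀
  have hxK : ∀ s, 0 ≤ s → x s - c ∈ S ∧ (∀ i, 0 < x s i) ∧
      ∀ z ∈ W, z.1 ⬝ᵥ x s ≤ z.2 (max T0 (T1 - η * s)) := by
    intro s hs
    refine hbar F (fun s x => massAction_mem _ _ _) (fun u hu y hy w => ?_) x s hxc.continuousOn
      (fun u hu => ⟨hxi _ _, by rw [hx0]; exact hxs u hu.1⟩) (by rw [hx0]; exact hx₀.1)
      (by rw [hx0]; exact hx₀.2) (by rw [hx0]; exact fun z hz => (hT1 z hz).le) s
      (right_mem_Icc.2 hs)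
    simp only [F]
    rw [clamp_eq hy]
    exact dot_massAction_le R ε w y _ (hk _ (le_max_right _ _))
      fun i => (half_pos hlo0).le.trans (hy i).1
  have hwide : ∀ {y : Fin d → ℝ}, (∀ i, lo ≤ y i ∧ y i ≤ hi) →
      ∀ i, lo / 2 ≤ y i ∧ y i ≤ 2 * hi := fun h i => ⟨by linarith [(h i).1], by linarith [(h i).2]⟩
  have hxb : ∀ s, 0 ≤ s → ∀ i, lo ≤ x s i ∧ x s i ≤ hi := fun s hs =>
    hbox' _ (hθ s hs) _ (hxK s hs).2.1 (hxK s hs).2.2
  have hFx : ∀ s, 0 ≤ s → F s (x s) = massAction R (k s) (x s) := fun s hs => by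
    simp only [F]
    rw [clamp_eq (hwide (hxb s hs)), max_eq_left hs]
  have hsol : ∀ t, 0 ≤ t →
      IntervalIntegrable (fun s => massAction R (k s) (x s)) volume 0 t ∧
        x t = x 0 + ∫ s in (0 : ℝ)..t, massAction R (k s) (x s) := by
    intro t ht
    refine ⟨(hxi 0 t).congr fun s hs => hFx s ?_, ?_⟩
    · rw [uIoc_of_le ht] at hs; exact hs.1.le
    · rw [hx0, hxs t ht]
      congr 1
      refine intervalIntegral.integral_congr fun s hs => hFx s ?_
      rw [uIcc_of_le ht] at hs; exact hs.1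
  refine ⟨x, hx0, ⟨hxc.continuousOn, hsol⟩, fun t ht => ⟨(hxK t ht).1, (hxK t ht).2.1⟩, ?_, ?_⟩
  · filter_upwards [eventually_ge_atTop (0 : ℝ), eventually_ge_atTop ((T1 - T0) / η)]
      with t ht ht'
    have h1 : max T0 (T1 - η * t) = T0 := by
      rw [div_le_iff₀ hη] at ht'
      exact max_eq_left (by linarith)
    have h2 := hxK t ht
    rw [h1] at h2
    have h3 := (hT0 T0 le_rfl).1.2.1 _ h2.2.1 h2.2.2
    exact ⟨h2.1, fun i => (h3 i).1, fun i => (h3 i).2⟩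
  · intro b z hz0 hz t ht
    have hsub : Icc 0 t ⊆ Ico 0 b := fun s hs => ⟨hs.1, hs.2.trans_lt ht.2⟩
    have hzK := hbar (fun s => massAction R (k s)) (fun s x => massAction_mem _ _ _)
      (fun u hu y hy w => dot_massAction_le R ε w y _ (hk _ hu)
        fun i => (half_pos hlo0).le.trans (hy i).1) z t (hz.1.mono hsub)
      (fun u hu => hz.2 u (hsub hu)) (by rw [hz0]; exact hx₀.1)
      (by rw [hz0]; exact hx₀.2) (by rw [hz0]; exact fun z hz => (hT1 z hz).le)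
    refine integral_sol_unique (F := fun s => massAction R (k s)) hL ht.1 (hz.1.mono hsub)
      hxc.continuousOn (fun s hs => ?_) (fun u hu => hz.2 u (hsub hu))
      (fun u hu => hsol u hu.1) (by rw [hz0, hx0])
    exact (hLM _ (hk s hs.1)).2 _ _
      (hwide (hbox' _ (hθ s hs.1) _ (hzK s hs).2.1 (hzK s hs).2.2)) (hwide (hxb s hs.1))

lemma massAction_continuous (R : Finset ((Fin d → ℕ) × (Fin d → ℕ)))
    (k : (Fin d → ℕ) × (Fin d → ℕ) → ℝ) : Continuous (massAction R k) := by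
  unfold massAction
  fun_prop

theorem permanence (hd : 1 ≤ d) {R : Finset ((Fin d → ℕ) × (Fin d → ℕ))}
    (hR : WeaklyReversible R) {k : (Fin d → ℕ) × (Fin d → ℕ) → ℝ} (hk : ∀ r ∈ R, 0 < k r)
    {c : Fin d → ℝ} (hc : ∀ i, 0 < c i) : PermanentOn (massAction R k) (posClass R c) := by
  have hev : ∀ᶠ ε : ℝ in 𝓝[>] 0, ∀ r ∈ R, ε ≤ k r ∧ k r ≤ ε⁻¹ := by
    refine (eventually_all_finset R).2 fun r hr => ?_
    exact (((ge_mem_nhds (hk r hr))).filter_mono nhdsWithin_le_nhds).and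
      (tendsto_inv_nhdsGT_zero.eventually_ge_atTop _)
  obtain ⟨ε, hε, hε0⟩ := (hev.and self_mem_nhdsWithin).exists
  obtain ⟨K, hK, hKP, h⟩ := strong_permanence hd hR hε0 hc
  refine ⟨K, hK, hKP, fun x₀ hx₀ => ?_⟩
  obtain ⟨x, hx0, hsol, hP, hev, huniq⟩ :=
    h (fun _ => k) (fun _ _ => measurable_const) (fun _ _ => hε) x₀ hx₀
  have hf := massAction_continuous R k
  refine ⟨x, hx0, ?_, hP, hev, fun b z hz0 hz => huniq b z hz0 ?_⟩
  · intro t ht
    have h1 : Continuous fun s : ℝ => x (max s 0) :=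
      hsol.1.comp_continuous (by fun_prop) fun s => mem_Ici.2 (le_max_right _ _)
    have h2 : Continuous fun s : ℝ => massAction R k (x (max s 0)) := hf.comp h1
    have h3 := (intervalIntegral.integral_hasDerivAt_right (h2.intervalIntegrable 0 t)
      (h2.stronglyMeasurableAtFilter _ _) h2.continuousAt).const_add (x 0)
    rw [max_eq_left ht] at h3
    have h4 : ∀ u ∈ Ici (0 : ℝ), x u =
        x 0 + ∫ s in (0 : ℝ)..u, massAction R k (x (max s 0)) := by
      intro u hu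
      rw [(hsol.2 u hu).2]
      congr 1
      refine intervalIntegral.integral_congr fun s hs => ?_
      rw [uIcc_of_le hu] at hs
      simp only [max_eq_left hs.1]
    exact h3.hasDerivWithinAt.congr h4 (h4 t ht)
  · have hzc : ContinuousOn z (Ico 0 b) := fun t ht => (hz t ht).continuousWithinAt
    refine ⟨hzc, fun t ht => ?_⟩
    have hsub : Icc 0 t ⊆ Ico 0 b := fun s hs => ⟨hs.1, hs.2.trans_lt ht.2⟩
    have hi : IntervalIntegrable (fun s => massAction R k (z s)) volume 0 t := by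
      apply ContinuousOn.intervalIntegrable
      rw [uIcc_of_le ht.1]
      exact hf.comp_continuousOn (hzc.mono hsub)
    refine ⟨hi, ?_⟩
    rw [intervalIntegral.integral_eq_sub_of_hasDeriv_right_of_le ht.1 (hzc.mono hsub)
      (fun s hs => (hz s ⟨hs.1.le, hs.2.trans ht.2⟩).mono_of_mem_nhdsWithin
        (Ico_mem_nhdsGT_of_mem ⟨hs.1.le, hs.2.trans ht.2⟩)) hi]
    abel

end Vale.Agent.P072
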