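import Vale.Agent.P072.Tree

/-!
The family of constraints for decreasingly sorted points.
-/

namespace Vale.Agent.P072

open Filter Set Real

variable {d : ℕ}

lemma scales_exist (d : ℕ) (f : ℕ → ℝ → ℝ) (hf : ∀ j M, 0 < f j M) :
    ∃ M : ℕ → ℝ, (∀ j, 0 < M j ∧ M j ≤ 1) ∧ M d = 1 ∧
      (∀ i j, i ≤ j → M i ≤ M j) ∧ ∀ j < d, M j ≤ M (j + 1) * f j (M (j + 1)) / 2 := by
  let N : ℕ → ℝ := fun i => Nat.rec 1 (fun i n => n * min (f (d - 1 - i) n) 1 / 2) i
  have hN0 : N 0 = 1 := rfl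
  have hNs : ∀ i, N (i + 1) = N i * min (f (d - 1 - i) (N i)) 1 / 2 := fun i => rfl
  have hpos : ∀ i, 0 < N i := by
    intro i
    induction i with
    | zero => rw [hN0]; exact one_pos
    | succ i ih => rw [hNs]; exact div_pos (mul_pos ih (lt_min (hf _ _) one_pos)) two_pos
  have hanti : Antitone N := by
    refine antitone_nat_of_succ_le fun i => ?_
    rw [hNs]
    have h1 : min (f (d - 1 - i) (N i)) 1 ≤ 1 := min_le_right _ _
    have h2 := hpos i
    nlinarith
  refine ⟨fun j => N (d - j), fun j => ⟨hpos _, hN0 ▸ hanti (Nat.zero_le _)⟩, by simp [hN0],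
    fun i j hij => hanti (by omega), fun j hj => ?_⟩
  have h1 : d - j = (d - (j + 1)) + 1 := by omega
  have h2 : d - 1 - (d - (j + 1)) = j := by omega
  show N (d - j) ≤ N (d - (j + 1)) * f j (N (d - (j + 1))) / 2
  rw [h1, hNs, h2]
  have h3 : min (f j (N (d - (j + 1)))) 1 ≤ f j (N (d - (j + 1))) := min_le_left _ _
  have h4 := hpos (d - (j + 1))
  nlinarith

lemma tree_antitone {ε : (Fin d → ℝ) → ℝ} {B : ℝ} {k : ℕ} {q : Fin d → ℝ} {p e E : ℝ}
    {L : Set ((Fin d → ℝ) × (ℝ → ℝ))} (h : TreeProp ε B k q p e E L) (hq : Antitone q)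
    (hp : ∀ l, p ≤ q l) : ∀ z ∈ L, Antitone z.1 ∧ ∀ l, z.1 l ≤ q l := by
  intro z hz
  obtain ⟨h1, h2, h3, -⟩ := h.2.1 z hz
  refine ⟨fun l l' hll => ?_, fun l => ?_⟩
  · by_cases hl : (l : ℕ) < k
    · by_cases hl' : (l' : ℕ) < k
      · rw [h1 l hl, h1 l' hl']; exact hq hll
      · rw [h1 l hl]; exact (h2 l' (not_lt.1 hl')).2.trans (hp l)
    · exact h3 l l' (not_lt.1 hl) hll
  · by_cases hl : (l : ℕ) < k
    · exact (h1 l hl).le
    · exact (h2 l (not_lt.1 hl)).2.trans (hp l)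

/-- The root slope vector of the `j`-th lower family. -/
noncomputable def qLow (d : ℕ) (j : ℕ) : Fin d → ℝ := fun l => if (l : ℕ) < j then 0 else -1

lemma qLow_antitone (d j : ℕ) : Antitone (qLow d j) := by
  intro l l' h
  unfold qLow
  have : (l : ℕ) ≤ l' := h
  split_ifs <;> first | omega | norm_num

lemma qLow_ge (d j : ℕ) (l : Fin d) : -1 ≤ qLow d j l := by
  unfold qLow; split_ifs <;> norm_num

lemma qLow_le (d j : ℕ) (l : Fin d) : qLow d j l ≤ 0 := by
  unfold qLow; split_ifs <;> norm_num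

lemma qLow_tie (d j : ℕ) :
    (fun l : Fin d => if (l : ℕ) < j + 1 then qLow d j l else -1) = qLow d j := by
  funext l
  unfold qLow
  split_ifs <;> first | rfl | omega

lemma dot_le_neg {a y : Fin d → ℝ} (j : Fin d) (ha : ∀ l, a l ≤ qLow d j l)
    (hy : ∀ l, 0 < y l) : a ⬝ᵥ y ≤ - y j := by
  have h1 : y j ≤ (-a) ⬝ᵥ y := by
    unfold dotProduct
    refine le_trans ?_ (Finset.single_le_sum (f := fun l => (-a) l * y l)
      (fun l _ => ?_) (Finset.mem_univ j))
    · have := ha j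
      simp only [qLow, lt_irrefl, if_false] at this
      simp only [Pi.neg_apply]
      nlinarith [hy j]
    · simp only [Pi.neg_apply]
      exact mul_nonneg (by linarith [ha l, qLow_le d j l]) (hy l).le
  rw [neg_dotProduct] at h1
  linarith

lemma qLow_dot_ge {y : Fin d → ℝ} (j : Fin d) (hy : ∀ l, 0 < y l) (hya : Antitone y) :
    -(d * y j) ≤ qLow d j ⬝ᵥ y := by
  have h1 : (-qLow d j) ⬝ᵥ y ≤ d * y j := by
    unfold dotProduct
    refine le_trans (Finset.sum_le_card_nsmul _ _ (y j) (fun l _ => ?_)) (by simp)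
    simp only [Pi.neg_apply, qLow]
    split_ifs with h
    · simp [(hy j).le]
    · simp only [neg_neg, one_mul]
      exact hya (show j ≤ l from not_lt.1 h)
  rw [neg_dotProduct] at h1
  linarith

lemma dot_le_top {a y : Fin d → ℝ} (j : Fin d) (ha : ∀ l, a l ≤ 1)
    (hy : ∀ l, 0 < y l) (hj : ∀ l, y l ≤ y j) : a ⬝ᵥ y ≤ d * y j := by
  unfold dotProduct
  refine le_trans (Finset.sum_le_card_nsmul _ _ (y j) (fun l _ => ?_)) (by simp)
  nlinarith [ha l, hy l, hj l]

theorem sorted_exists (hd : 1 ≤ d) (ε : (Fin d → ℝ) → ℝ) (hε : ∀ a, 0 < ε a) :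
    ∃ A : Set ((Fin d → ℝ) × (ℝ → ℝ)), A.Finite ∧ ∃ μ > 0,
      (∀ z ∈ A, Antitone z.1 ∧ ContDiff ℝ 1 z.2) ∧
      (∀ y : Fin d → ℝ, (∀ l, 0 < y l) → ∀ᶠ T : ℝ in atTop, ∀ z ∈ A, z.1 ⬝ᵥ y < z.2 T) ∧
      (∀ᶠ T : ℝ in atTop, ∀ y : Fin d → ℝ, Antitone y → (∀ l, 0 < y l) →
        (∀ z ∈ A, z.1 ⬝ᵥ y ≤ z.2 T) →
        (∀ l, exp (T * (-2)) ≤ y l ∧ y l ≤ exp (T * 2)) ∧
        ∀ z ∈ A, z.1 ⬝ᵥ y = z.2 T → ∃ S, μ * T ≤ S ∧
          ∀ l, exp (S * (z.1 l - ε z.1)) ≤ y l ∧ y l ≤ exp (S * (z.1 l + ε z.1))) := by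
  have hlow : ∀ (j : ℕ) (M : ℝ), ∃ e > 0, ∃ L, j < d → 0 < M → M ≤ 1 →
      TreeProp ε (1 / M) (j + 1) (qLow d j) (-1) e e L := by
    intro j M
    by_cases h : j < d ∧ 0 < M ∧ M ≤ 1
    · obtain ⟨e, he, L, hL⟩ := tree_exists ε hε (1 / M) (d - (j + 1)) (j + 1) (by omega)
        (qLow d j) (-1) (by
          have : 1 ≤ 1 / M := by rw [le_div_iff₀ h.2.1]; linarith [h.2.2]
          linarith)
      exact ⟨e, he, L, fun _ _ _ => hL⟩
    · exact ⟨1, one_pos, ∅, fun h1 h2 h3 => absurd ⟨h1, h2, h3⟩ h⟩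
  choose eb heb Lb hLb using hlow
  obtain ⟨M, hM, hMd, hMmono, hMe⟩ := scales_exist d eb heb
  obtain ⟨et, het, Lt, hLt⟩ := tree_exists ε hε (1 / M 0) (d - 1) 1 (by omega)
    (fun _ => 1) 1 (by
      have : 0 < 1 / M 0 := one_div_pos.2 (hM 0).1
      linarith)
  have hL : ∀ j : Fin d, TreeProp ε (1 / M (j + 1)) (j + 1) (qLow d j) (-1)
      (eb j (M (j + 1))) (eb j (M (j + 1))) (Lb j (M (j + 1))) :=
    fun j => hLb j _ j.2 (hM _).1 (hM _).2
  have hLa := fun j => tree_antitone (hL j) (qLow_antitone d j) (qLow_ge d j)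
  have hLta := tree_antitone hLt antitone_const (fun _ => le_rfl)
  have hT : ∀ i : ℕ, Tendsto (fun T : ℝ => M i * T) atTop atTop :=
    fun i => tendsto_id.const_mul_atTop (hM i).1
  let up : (Fin d → ℝ) × (ℝ → ℝ) → (Fin d → ℝ) × (ℝ → ℝ) :=
    fun z => (z.1, fun T => exp (M 0 * T) + z.2 (M 0 * T))
  let lw : Fin d → (Fin d → ℝ) × (ℝ → ℝ) → (Fin d → ℝ) × (ℝ → ℝ) :=
    fun j z => (z.1, fun T => -exp (M (j + 1) * T * (-1)) + z.2 (M (j + 1) * T))
  have hdpos : (0 : ℝ) < d := by exact_mod_cast hd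
  let o : Fin d := ⟨0, hd⟩
  refine ⟨up '' Lt ∪ ⋃ j : Fin d, lw j '' Lb j (M (j + 1)),
    (hLt.1.image _).union (finite_iUnion fun j => (hL j).1.image _), M 0, (hM 0).1, ?_, ?_, ?_⟩
  · rintro z (⟨z, hz, rfl⟩ | hz0)
    · refine ⟨(hLta z hz).1, ?_⟩
      exact (contDiff_const.mul contDiff_id).exp.add
        ((hLt.2.1 z hz).2.2.2.2.comp (contDiff_const.mul contDiff_id))
    · obtain ⟨j, z, hz, rfl⟩ := mem_iUnion.1 hz0
      refine ⟨(hLa j z hz).1, ?_⟩
      exact ((contDiff_const.mul contDiff_id).mul contDiff_const).exp.neg.add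
        (((hL j).2.1 z hz).2.2.2.2.comp (contDiff_const.mul contDiff_id))
  · intro y hy
    have e1 : ∀ᶠ T : ℝ in atTop, ∀ j : Fin d, exp (M (j + 1) * T * (-1)) < y j ∧
        ∀ z ∈ Lb j (M (j + 1)), 0 ≤ z.2 (M (j + 1) * T) := by
      refine eventually_all.2 fun j => ?_
      have h1 : Tendsto (fun T : ℝ => exp (M (j + 1) * T * (-1))) atTop (nhds 0) :=
        Real.tendsto_exp_atBot.comp ((hT _).atTop_mul_const_of_neg (by norm_num))
      filter_upwards [h1.eventually (gt_mem_nhds (hy j)), (hT _).eventually (hL j).2.2.2]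
        with T h2 h3
      exact ⟨h2, fun z hz => (h3.1 z hz).1⟩
    have e2 : ∀ᶠ T : ℝ in atTop, (fun _ => (1 : ℝ)) ⬝ᵥ y < exp (M 0 * T) :=
      (Real.tendsto_exp_atTop.comp (hT 0)).eventually (eventually_gt_atTop _)
    filter_upwards [e1, e2, (hT 0).eventually hLt.2.2.2] with T h1 h2 h3
    rintro z (⟨z, hz, rfl⟩ | hz0)
    · have h4 : z.1 ⬝ᵥ y ≤ (fun _ => (1 : ℝ)) ⬝ᵥ y :=
        Finset.sum_le_sum fun l _ => mul_le_mul_of_nonneg_right ((hLta z hz).2 l) (hy l).le
      have h5 := (h3.1 z hz).1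
      show z.1 ⬝ᵥ y < exp (M 0 * T) + z.2 (M 0 * T)
      linarith
    · obtain ⟨j, z, hz, rfl⟩ := mem_iUnion.1 hz0
      have h4 := dot_le_neg j (hLa j z hz).2 hy
      have h5 := (h1 j).2 z hz
      have h6 := (h1 j).1
      show z.1 ⬝ᵥ y < -exp (M (j + 1) * T * (-1)) + z.2 (M (j + 1) * T)
      linarith
  · have e1 : ∀ᶠ T : ℝ in atTop, ∀ j : Fin d,
        (2 * d * exp (M (j + 1) * T * (-1 - eb j (M (j + 1)))) ≤ exp (M (j + 1) * T * (-1)) ∧
        2 * d * exp (M (j + 1) * T * (-eb j (M (j + 1)))) ≤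
          exp (M (j + 1) * T * (-eb j (M (j + 1)) / 2)) ∧
        2 * exp (M (j + 1) * T * (eb j (M (j + 1)) / 2)) ≤
          exp (M (j + 1) * T * (eb j (M (j + 1)))) ∧
        2 * d * exp (M (j + 1) * T * (-(1 / M (j + 1)) - eb j (M (j + 1)))) ≤
          exp (M (j + 1) * T * (-(1 / M (j + 1)))) ∧
        2 * exp (M (j + 1) * T * (-1 - eb j (M (j + 1)))) ≤ exp (M (j + 1) * T * (-1))) := by
      refine eventually_all.2 fun j => ?_
      have he := heb j (M (j + 1))
      exact ((hT _).eventually (ev_exp_le (by linarith) _)).and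
        (((hT _).eventually (ev_exp_le (by linarith) _)).and
        (((hT _).eventually (ev_exp_le (by linarith) _)).and
        (((hT _).eventually (ev_exp_le (by linarith) _)).and
        ((hT _).eventually (ev_exp_le (by linarith) _)))))
    have e2 := eventually_all.2 fun j : Fin d => (hT (j + 1)).eventually (hL j).2.2.2
    filter_upwards [e1, e2, (hT 0).eventually hLt.2.2.2, eventually_ge_atTop (0 : ℝ),
      (hT 0).eventually (ev_exp_le (show (1 : ℝ) < 1 + et by linarith) 2),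
      (hT 0).eventually (ev_exp_le (show 1 - et < (1 : ℝ) by linarith) d),
      (hT 0).eventually (ev_exp_le (show -(1 / M 0) - et < -(1 / M 0) by linarith) (2 * d)),
      ev_exp_le (show (-2 : ℝ) < -1 by norm_num) (2 * d),
      ev_exp_le (show (1 : ℝ) < 2 by norm_num) 2] with T h1 h2 h3 hT0 h4 h5 h6 h7 h8
    intro y hya hy hK
    have hS0 : ∀ i, 0 ≤ M i * T := fun i => mul_nonneg (hM i).1.le hT0
    -- upper bound
    have hU : ∀ l, y l ≤ 2 * exp (M 0 * T) := by
      obtain ⟨φ, hφ⟩ := hLt.2.2.1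
      have k1 := hK _ (Or.inl ⟨_, hφ, rfl⟩)
      have k2 := (h3.1 _ hφ).2
      have k3 : exp (M 0 * T * (1 - et)) ≤ exp (M 0 * T) :=
        exp_le_exp.2 (by nlinarith [hS0 0])
      simp only [up, ite_self] at k1 k2
      intro l
      have k4 : y l ≤ (fun _ : Fin d => (1 : ℝ)) ⬝ᵥ y := by
        unfold dotProduct
        simp only [one_mul]
        exact Finset.single_le_sum (f := y) (fun l _ => (hy l).le) (Finset.mem_univ l)
      linarith
    -- lower bound
    have hLo : ∀ l : Fin d, exp (M (l + 1) * T * (-1)) ≤ 2 * d * y l := by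
      intro l
      obtain ⟨φ, hφ⟩ := (hL l).2.2.1
      rw [qLow_tie] at hφ
      have k1 := hK _ (Or.inr (mem_iUnion.2 ⟨l, _, hφ, rfl⟩))
      have k2 := ((h2 l).1 _ hφ).2
      have k3 := qLow_dot_ge l hy hya
      have k4 := (h1 l).2.2.2.2
      simp only [lw] at k1 k2
      linarith
    have hLo' : ∀ l : Fin d, exp (T * (-1)) ≤ 2 * d * y l := fun l =>
      (exp_le_exp.2 (by nlinarith [(hM (l + 1)).2])).trans (hLo l)
    have hcanc : ∀ {u v : ℝ}, 2 * d * u ≤ 2 * d * v → u ≤ v := fun h =>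
      le_of_mul_le_mul_left h (by linarith)
    have hdiv : ∀ i, M i * T * (-(1 / M i)) = T * (-1) := fun i => by
      have := (hM i).1.ne'
      field_simp
    refine ⟨fun l => ⟨hcanc (h7.trans (hLo' l)), ?_⟩, ?_⟩
    · refine (hU l).trans (le_trans ?_ h8)
      have : exp (M 0 * T) ≤ exp (T * 1) := exp_le_exp.2 (by nlinarith [(hM 0).2])
      linarith
    · rintro z (⟨z, hz, rfl⟩ | hz0) hact
      · refine ⟨M 0 * T, le_rfl, ?_⟩
        simp only [up] at hact ⊢
        have k1 : ∀ l, y l ≤ exp (M 0 * T * (1 + et)) := fun l =>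
          (hU l).trans (by simpa using h4)
        have k2 : ∀ l, exp (M 0 * T * (-(1 / M 0) - et)) ≤ y l := fun l =>
          hcanc (h6.trans (by rw [hdiv]; exact hLo' l))
        have k3 := h3.2 y hya (fun l _ => k2 l) (fun l _ => k1 l) z hz (fun z' hz' => by
          have := hK _ (Or.inl ⟨z', hz', rfl⟩)
          simp only [up] at this
          linarith)
        intro l
        by_cases hl : 1 ≤ (l : ℕ)
        · exact k3 l hl
        · have hz1 : z.1 l = 1 := (hLt.2.1 z hz).1 l (by omega)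
          have heε := (hLt.2.1 z hz).2.2.2.1
          have k4 := dot_le_top l (hLta z hz).2 hy (fun l' => hya (show (l : ℕ) ≤ l' by omega))
          have k5 := (h3.1 z hz).1
          rw [hz1]
          refine ⟨(exp_mul_mono (hS0 0) (show 1 - ε z.1 ≤ 1 - et by linarith)).trans ?_,
            (k1 l).trans (exp_mul_mono (hS0 0) (by linarith))⟩
          refine le_of_mul_le_mul_left ?_ hdpos
          rw [mul_one] at h5
          linarith
      · obtain ⟨j, z, hz, rfl⟩ := mem_iUnion.1 hz0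
        refine ⟨M (j + 1) * T, mul_le_mul_of_nonneg_right (hMmono _ _ (Nat.zero_le _)) hT0, ?_⟩
        simp only [lw] at hact ⊢
        have he := heb j (M (j + 1))
        have heε := ((hL j).2.1 z hz).2.2.2.1
        have k0 : y j ≤ exp (M (j + 1) * T * (-1)) := by
          have := dot_le_neg j (hLa j z hz).2 hy
          have := ((h2 j).1 z hz).1
          linarith
        have k1 : ∀ l : Fin d, (j : ℕ) ≤ l →
            y l ≤ exp (M (j + 1) * T * (-1 + eb j (M (j + 1)))) := fun l hl =>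
          ((hya (show j ≤ l from hl)).trans k0).trans (exp_mul_mono (hS0 _) (by linarith))
        have k2 : ∀ l, exp (M (j + 1) * T * (-(1 / M (j + 1)) - eb j (M (j + 1)))) ≤ y l :=
          fun l => hcanc ((h1 j).2.2.2.1.trans (by rw [hdiv]; exact hLo' l))
        have k3 := (h2 j).2 y hya (fun l _ => k2 l) (fun l hl => k1 l (by omega)) z hz
          (fun z' hz' => by
            have := hK _ (Or.inr (mem_iUnion.2 ⟨j, z', hz', rfl⟩))
            simp only [lw] at this
            linarith)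
        intro l
        by_cases hl : (j : ℕ) + 1 ≤ (l : ℕ)
        · exact k3 l hl
        · have hz1 : z.1 l = qLow d j l := ((hL j).2.1 z hz).1 l (by omega)
          rw [hz1]
          by_cases hlj : (l : ℕ) < j
          · simp only [qLow, hlj, if_true]
            have m1 : M j * T ≤ M (j + 1) * T * (eb j (M (j + 1)) / 2) := by
              have := mul_le_mul_of_nonneg_right (hMe j j.2) hT0
              linarith
            have m2 : M (l + 1) * T ≤ M j * T :=
              mul_le_mul_of_nonneg_right (hMmono _ _ (by omega)) hT0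
            have m3 : M 0 * T ≤ M j * T :=
              mul_le_mul_of_nonneg_right (hMmono _ _ (by omega)) hT0
            refine ⟨(exp_mul_mono (hS0 _) (show 0 - ε z.1 ≤ -eb j (M (j + 1)) by linarith)).trans
              (hcanc ((h1 j).2.1.trans (le_trans (exp_le_exp.2 (by linarith)) (hLo l)))), ?_⟩
            refine (hU l).trans (le_trans ?_ ((h1 j).2.2.1.trans
              (exp_mul_mono (hS0 _) (by linarith))))
            have : exp (M 0 * T) ≤ exp (M (j + 1) * T * (eb j (M (j + 1)) / 2)) :=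
              exp_le_exp.2 (by linarith)
            linarith
          · have : l = j := Fin.ext (by omega)
            subst this
            simp only [qLow, lt_irrefl, if_false]
            exact ⟨(exp_mul_mono (hS0 _) (show -1 - ε z.1 ≤ -1 - eb l (M (l + 1)) by
              linarith)).trans (hcanc ((h1 l).1.trans (hLo l))),
              (k1 l le_rfl).trans (exp_mul_mono (hS0 _) (by linarith))⟩

end Vale.Agent.P072
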