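import Mathlib.Analysis.SpecialFunctions.ExpDeriv
import Mathlib.Analysis.SpecialFunctions.Exp
import Mathlib.Data.Matrix.Mul
import Mathlib.Analysis.Calculus.ContDiff.Operations

/-!
The staircase tree: a finite family of slope vectors with costs whose maximiser is close to the
rescaled logarithm of the point.
-/

namespace Vale.Agent.P072

open Filter Set Real

lemma ev_exp_le {α β : ℝ} (h : α < β) (C : ℝ) :
    ∀ᶠ S : ℝ in atTop, C * exp (S * α) ≤ exp (S * β) := by
  have h1 : Tendsto (fun S : ℝ => exp (S * (β - α))) atTop atTop :=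
    Real.tendsto_exp_atTop.comp (tendsto_id.atTop_mul_const (sub_pos.2 h))
  filter_upwards [h1.eventually_ge_atTop C] with S hS
  have : exp (S * β) = exp (S * (β - α)) * exp (S * α) := by
    rw [← Real.exp_add]; ring_nf
  rw [this]
  exact mul_le_mul_of_nonneg_right hS (exp_pos _).le

lemma chain_induction (e : ℝ → ℝ) (he : ∀ b, 0 < e b) (lo : ℝ) (Q : ℝ → Prop) (h0 : Q lo)
    (hstep : ∀ b' b, lo ≤ b' → b' < b → b - b' < e b + e b' → Q b' → Q b) :
    ∀ p, lo ≤ p → Q p := by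
  intro p hp
  set s : Set ℝ := {b | lo ≤ b ∧ b ≤ p ∧ Q b} with hs
  have hne : s.Nonempty := ⟨lo, le_rfl, hp, h0⟩
  have hbdd : BddAbove s := ⟨p, fun b hb => hb.2.1⟩
  have hlo : lo ≤ sSup s := le_csSup hbdd ⟨le_rfl, hp, h0⟩
  have hup : sSup s ≤ p := csSup_le hne fun b hb => hb.2.1
  have hQ : Q (sSup s) := by
    obtain ⟨b, hb, hb'⟩ := exists_lt_of_lt_csSup hne (show sSup s - e (sSup s) < sSup s by
      linarith [he (sSup s)])
    have hle : b ≤ sSup s := le_csSup hbdd hb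
    rcases hle.lt_or_eq with hlt | heq
    · exact hstep b _ hb.1 hlt (by linarith [he b]) hb.2.2
    · exact heq ▸ hb.2.2
  rcases hup.lt_or_eq with hlt | heq
  · exfalso
    have h1 : sSup s < min p (sSup s + e (sSup s) / 2) :=
      lt_min hlt (by linarith [he (sSup s)])
    have h2 : min p (sSup s + e (sSup s) / 2) ≤ sSup s + e (sSup s) / 2 := min_le_right _ _
    have h3 : Q (min p (sSup s + e (sSup s) / 2)) :=
      hstep _ _ hlo h1 (by linarith [he (sSup s), he (min p (sSup s + e (sSup s) / 2))]) hQ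
    have h4 : min p (sSup s + e (sSup s) / 2) ≤ sSup s :=
      le_csSup hbdd ⟨hlo.trans h1.le, min_le_left _ _, h3⟩
    linarith
  · exact heq ▸ hQ

variable {d : ℕ}

/-- The specification of a subtree below a node of depth `k` with initial slopes `q`. -/
def TreeProp (ε : (Fin d → ℝ) → ℝ) (B : ℝ) (k : ℕ) (q : Fin d → ℝ) (p e E : ℝ)
    (L : Set ((Fin d → ℝ) × (ℝ → ℝ))) : Prop :=
  L.Finite ∧
  (∀ z ∈ L, (∀ l : Fin d, (l : ℕ) < k → z.1 l = q l) ∧
    (∀ l : Fin d, k ≤ (l : ℕ) → -B ≤ z.1 l ∧ z.1 l ≤ p) ∧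
    (∀ l l' : Fin d, k ≤ (l : ℕ) → l ≤ l' → z.1 l' ≤ z.1 l) ∧ e ≤ ε z.1 ∧ ContDiff ℝ 1 z.2) ∧
  (∃ φ, ((fun l : Fin d => if (l : ℕ) < k then q l else p), φ) ∈ L) ∧
  (∀ᶠ S : ℝ in atTop, (∀ z ∈ L, 0 ≤ z.2 S ∧ z.2 S ≤ exp (S * (p - e))) ∧
    ∀ y : Fin d → ℝ, Antitone y → (∀ l : Fin d, k ≤ (l : ℕ) → exp (S * (-B - e)) ≤ y l) →
      (∀ l : Fin d, k ≤ (l : ℕ) → y l ≤ exp (S * (p + E))) →
      ∀ z ∈ L, (∀ z' ∈ L, z'.1 ⬝ᵥ y - z'.2 S ≤ z.1 ⬝ᵥ y - z.2 S) →
        ∀ l : Fin d, k ≤ (l : ℕ) →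
          exp (S * (z.1 l - ε z.1)) ≤ y l ∧ y l ≤ exp (S * (z.1 l + ε z.1)))

lemma exp_mul_mono {S α β : ℝ} (hS : 0 ≤ S) (h : α ≤ β) : exp (S * α) ≤ exp (S * β) :=
  exp_le_exp.2 (mul_le_mul_of_nonneg_left h hS)

lemma child_struct {ε : (Fin d → ℝ) → ℝ} {B : ℝ} {κ : Fin d} {q : Fin d → ℝ} {b e E : ℝ}
    {L : Set ((Fin d → ℝ) × (ℝ → ℝ))}
    (h : TreeProp ε B ((κ : ℕ) + 1) (Function.update q κ b) b e E L) (hb : -B ≤ b) :
    ∀ z ∈ L, z.1 κ = b ∧ (∀ l : Fin d, (l : ℕ) < κ → z.1 l = q l) ∧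
      (∀ l : Fin d, (κ : ℕ) ≤ (l : ℕ) → -B ≤ z.1 l ∧ z.1 l ≤ b) ∧
      (∀ l l' : Fin d, (κ : ℕ) ≤ (l : ℕ) → l ≤ l' → z.1 l' ≤ z.1 l) := by
  intro z hz
  obtain ⟨h1, h2, h3, -, -⟩ := h.2.1 z hz
  have hκ : z.1 κ = b := by rw [h1 κ (Nat.lt_succ_self _)]; simp
  have hb2 : ∀ l : Fin d, (κ : ℕ) ≤ (l : ℕ) → -B ≤ z.1 l ∧ z.1 l ≤ b := by
    intro l hl
    rcases hl.lt_or_eq with hlt | heq
    · exact h2 l hlt
    · have : l = κ := Fin.ext heq.symm
      subst this
      rw [hκ]; exact ⟨hb, le_rfl⟩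
  refine ⟨hκ, ?_, hb2, ?_⟩
  · intro l hl
    have hne : l ≠ κ := fun h => by subst h; exact lt_irrefl _ hl
    rw [h1 l (Nat.lt_succ_of_lt hl), Function.update_of_ne hne]
  · intro l l' hl hll
    rcases hl.lt_or_eq with hlt | heq
    · exact h3 l l' hlt hll
    · have : l = κ := Fin.ext heq.symm
      subst this
      rw [hκ]; exact (hb2 l' hll).2

lemma tie_eq (κ : Fin d) (q : Fin d → ℝ) (b : ℝ) :
    (fun l : Fin d => if (l : ℕ) < (κ : ℕ) + 1 then Function.update q κ b l else b) =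
      (fun l : Fin d => if (l : ℕ) < (κ : ℕ) then q l else b) := by
  funext l
  by_cases h : l = κ
  · subst h; simp
  · have hne : (l : ℕ) ≠ κ := fun h' => h (Fin.ext h')
    rw [Function.update_of_ne h]
    by_cases h2 : (l : ℕ) < κ
    · simp [h2, Nat.lt_succ_of_lt h2]
    · have : ¬ (l : ℕ) < (κ : ℕ) + 1 := by omega
      simp [h2, this]

lemma tree_base {ε : (Fin d → ℝ) → ℝ} {B : ℝ} {κ : Fin d} {q : Fin d → ℝ} {e : ℝ}
    {L : Set ((Fin d → ℝ) × (ℝ → ℝ))}
    (h : TreeProp ε B ((κ : ℕ) + 1) (Function.update q κ (-B)) (-B) e e L) :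
    TreeProp ε B κ q (-B) e e L := by
  have hs := child_struct h le_rfl
  refine ⟨h.1, ?_, ?_, ?_⟩
  · intro z hz
    obtain ⟨-, h2, h3, h4⟩ := hs z hz
    exact ⟨h2, h3, h4, (h.2.1 z hz).2.2.2⟩
  · rw [← tie_eq]; exact h.2.2.1
  · filter_upwards [h.2.2.2, eventually_ge_atTop (0 : ℝ)] with S hS hS0
    refine ⟨hS.1, ?_⟩
    intro y hy hlo hup z hz hmax l hl
    rcases hl.lt_or_eq with hlt | heq
    · exact hS.2 y hy (fun l hl => hlo l (by omega)) (fun l hl => hup l (by omega)) z hz hmax l hlt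
    · have : l = κ := Fin.ext heq.symm
      subst this
      have he := (h.2.1 z hz).2.2.2.1
      rw [(hs z hz).1]
      exact ⟨(exp_mul_mono hS0 (by linarith)).trans (hlo l le_rfl),
        (hup l le_rfl).trans (exp_mul_mono hS0 (by linarith))⟩

lemma tree_step {ε : (Fin d → ℝ) → ℝ} {B : ℝ} {κ : Fin d} {q : Fin d → ℝ}
    {b' b e' E' e : ℝ} {L' L : Set ((Fin d → ℝ) × (ℝ → ℝ))}
    (hb' : -B ≤ b') (hbb : b' < b) (hgap : b - b' < e + E') (he' : 0 < e') (hE' : 0 < E')
    (he : 0 < e)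
    (h' : TreeProp ε B κ q b' e' E' L')
    (h : TreeProp ε B ((κ : ℕ) + 1) (Function.update q κ b) b e e L) :
    ∃ e'' > 0, e'' ≤ e ∧ ∃ L'', TreeProp ε B κ q b e'' e L'' := by
  obtain ⟨θ, hθ1, hθ2⟩ : ∃ θ, max b' (b - e) < θ ∧ θ < min b (b' + E') := by
    apply exists_between
    rw [max_lt_iff, lt_min_iff, lt_min_iff]
    refine ⟨⟨hbb, by linarith⟩, by linarith, by linarith⟩
  rw [max_lt_iff] at hθ1
  rw [lt_min_iff] at hθ2
  have hb : -B ≤ b := hb'.trans hbb.le
  have hs := child_struct h hb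
  set e'' := min e' (min e ((b - θ) / 2)) with he''
  have he1 : e'' ≤ e' := min_le_left _ _
  have he2 : e'' ≤ e := (min_le_right _ _).trans (min_le_left _ _)
  have he3 : e'' ≤ (b - θ) / 2 := (min_le_right _ _).trans (min_le_right _ _)
  have he0 : 0 < e'' := lt_min he' (lt_min he (by linarith))
  let sh : (Fin d → ℝ) × (ℝ → ℝ) → (Fin d → ℝ) × (ℝ → ℝ) :=
    fun z => (z.1, fun S => exp (S * θ) + z.2 S)
  refine ⟨e'', he0, he2, L' ∪ sh '' L, h'.1.union (h.1.image _), ?_, ?_, ?_⟩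
  · rintro z (hz | ⟨z, hz, rfl⟩)
    · obtain ⟨h1, h2, h3, h4, h5⟩ := h'.2.1 z hz
      exact ⟨h1, fun l hl => ⟨(h2 l hl).1, (h2 l hl).2.trans hbb.le⟩, h3, he1.trans h4, h5⟩
    · obtain ⟨-, h2, h3, h4⟩ := hs z hz
      refine ⟨h2, h3, h4, he2.trans (h.2.1 z hz).2.2.2.1, ?_⟩
      exact (contDiff_id.mul contDiff_const).exp.add (h.2.1 z hz).2.2.2.2
  · obtain ⟨φ, hφ⟩ := h.2.2.1
    rw [tie_eq] at hφ
    exact ⟨_, Or.inr ⟨_, hφ, rfl⟩⟩
  · filter_upwards [h.2.2.2, h'.2.2.2, eventually_ge_atTop (0 : ℝ),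
      ev_exp_le (show θ < b - e'' by linarith) 2,
      ev_exp_le hθ2.2 (2 / (b - b')),
      ev_exp_le hθ1.2 (3 * (d * (b + B))),
      ev_exp_le hθ1.1 3] with S hS hS' hS0 hE1 hE2 hE3 hE4
    have hcostL : ∀ z ∈ L, z.2 S ≤ exp (S * θ) := fun z hz =>
      (hS.1 z hz).2.trans (exp_mul_mono hS0 hθ1.2.le)
    refine ⟨?_, ?_⟩
    · rintro z (hz | ⟨z, hz, rfl⟩)
      · exact ⟨(hS'.1 z hz).1, (hS'.1 z hz).2.trans (exp_mul_mono hS0 (by linarith))⟩
      · refine ⟨add_nonneg (exp_pos _).le (hS.1 z hz).1, ?_⟩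
        have := hcostL z hz
        show exp (S * θ) + z.2 S ≤ _
        linarith
    · intro y hy hlo hup
      have hy0 : ∀ l : Fin d, (κ : ℕ) ≤ (l : ℕ) → 0 ≤ y l := fun l hl =>
        (exp_pos _).le.trans (hlo l hl)
      rintro z (hz | ⟨z, hz, rfl⟩) hmax
      · -- the maximiser is an old leaf
        obtain ⟨φ, hφ⟩ := h.2.2.1
        rw [tie_eq] at hφ
        have hm := hmax _ (Or.inr ⟨_, hφ, rfl⟩)
        have hc := hcostL _ hφ
        have hz0 := (hS'.1 z hz).1
        obtain ⟨h1, h2, -, -, -⟩ := h'.2.1 z hz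
        have hsum : (b - b') * y κ ≤
            (fun l : Fin d => if (l : ℕ) < (κ : ℕ) then q l else b) ⬝ᵥ y - z.1 ⬝ᵥ y := by
          rw [← sub_dotProduct]
          unfold dotProduct
          refine le_trans ?_ (Finset.single_le_sum (f := fun l =>
            ((fun l : Fin d => if (l : ℕ) < (κ : ℕ) then q l else b) - z.1) l * y l)
            (fun l _ => ?_) (Finset.mem_univ κ))
          · simp only [Pi.sub_apply, lt_irrefl, if_false]
            exact mul_le_mul_of_nonneg_right (by linarith [(h2 κ le_rfl).2]) (hy0 κ le_rfl)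
          · simp only [Pi.sub_apply]
            by_cases hl : (l : ℕ) < κ
            · simp [hl, h1 l hl]
            · simp only [hl, if_false]
              exact mul_nonneg (by linarith [(h2 l (not_lt.1 hl)).2]) (hy0 l (not_lt.1 hl))
        have hyκ : y κ ≤ exp (S * (b' + E')) := by
          refine le_trans ?_ hE2
          rw [div_mul_eq_mul_div, le_div_iff₀ (by linarith)]
          simp only [sh] at hm hc
          nlinarith
        refine hS'.2 y hy (fun l hl => (exp_mul_mono hS0 (by linarith)).trans (hlo l hl))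
          (fun l hl => (hy (show κ ≤ l from hl)).trans hyκ) z hz
          (fun z' hz' => hmax z' (Or.inl hz'))
      · -- the maximiser is a new leaf
        obtain ⟨φ, hφ⟩ := h'.2.2.1
        have hm := hmax _ (Or.inl hφ)
        have hc : φ S ≤ exp (S * b') :=
          (hS'.1 _ hφ).2.trans (exp_mul_mono hS0 (by linarith))
        have hz0 := (hS.1 z hz).1
        obtain ⟨h0, h1, h2, -⟩ := hs z hz
        have hsum : z.1 ⬝ᵥ y - (fun l : Fin d => if (l : ℕ) < (κ : ℕ) then q l else b') ⬝ᵥ y ≤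
            d * ((b + B) * y κ) := by
          rw [← sub_dotProduct]
          unfold dotProduct
          refine le_trans (Finset.sum_le_card_nsmul _ _ ((b + B) * y κ) (fun l _ => ?_)) ?_
          · simp only [Pi.sub_apply]
            by_cases hl : (l : ℕ) < κ
            · simp only [hl, if_true, h1 l hl, sub_self, zero_mul]
              exact mul_nonneg (by linarith) (hy0 κ le_rfl)
            · simp only [hl, if_false]
              have hl' := not_lt.1 hl
              exact mul_le_mul (by linarith [(h2 l hl').2]) (hy (show κ ≤ l from hl'))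
                (hy0 l hl') (by linarith)
          · simp
        have hyκ : exp (S * (b - e)) ≤ y κ := by
          by_contra hcon
          push Not at hcon
          have h5 : (d : ℝ) * ((b + B) * y κ) ≤ d * ((b + B) * exp (S * (b - e))) :=
            mul_le_mul_of_nonneg_left (mul_le_mul_of_nonneg_left hcon.le (by linarith))
              (Nat.cast_nonneg d)
          have h6 := exp_pos (S * θ)
          simp only [sh] at hm
          nlinarith
        have heε := (h.2.1 z hz).2.2.2.1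
        intro l hl
        rcases hl.lt_or_eq with hlt | heq
        · refine hS.2 y hy
            (fun l hl => (exp_mul_mono hS0 (by linarith)).trans (hlo l (by omega)))
            (fun l hl => hup l (by omega)) z hz (fun z' hz' => ?_) l hlt
          have := hmax _ (Or.inr ⟨z', hz', rfl⟩)
          simp only [sh] at this
          linarith
        · have : l = κ := Fin.ext heq.symm
          subst this
          show exp (S * (z.1 l - ε z.1)) ≤ y l ∧ y l ≤ exp (S * (z.1 l + ε z.1))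
          rw [h0]
          exact ⟨(exp_mul_mono hS0 (by linarith)).trans hyκ,
            (hup l le_rfl).trans (exp_mul_mono hS0 (by linarith))⟩

theorem tree_exists (ε : (Fin d → ℝ) → ℝ) (hε : ∀ a, 0 < ε a) (B : ℝ) :
    ∀ n k : ℕ, k + n = d → ∀ (q : Fin d → ℝ) (p : ℝ), -B ≤ p →
      ∃ e > 0, ∃ L, TreeProp ε B k q p e e L := by
  intro n
  induction n with
  | zero =>
    intro k hk q p _
    have hl : ∀ l : Fin d, (l : ℕ) < k := fun l => by have := l.2; omega
    refine ⟨ε q, hε q, {(q, fun _ => 0)}, finite_singleton _, ?_, ?_, ?_⟩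
    · rintro z rfl
      exact ⟨fun _ _ => rfl, fun l h => absurd (hl l) (not_lt.2 h),
        fun l _ h => absurd (hl l) (not_lt.2 h), le_rfl, contDiff_const⟩
    · refine ⟨fun _ => 0, ?_⟩
      simp [hl]
    · refine Eventually.of_forall fun S => ⟨?_, ?_⟩
      · rintro z rfl
        exact ⟨le_rfl, (exp_pos _).le⟩
      · intro y _ _ _ z _ _ l h
        exact absurd (hl l) (not_lt.2 h)
  | succ n ih =>
    intro k hk q p hp
    let κ : Fin d := ⟨k, by omega⟩
    have hch : ∀ b : ℝ, ∃ e > 0, ∃ L, -B ≤ b →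
        TreeProp ε B ((κ : ℕ) + 1) (Function.update q κ b) b e e L := by
      intro b
      by_cases hb : -B ≤ b
      · obtain ⟨e, he, L, hL⟩ := ih (k + 1) (by omega) (Function.update q κ b) b hb
        exact ⟨e, he, L, fun _ => hL⟩
      · exact ⟨1, one_pos, ∅, fun h => absurd h hb⟩
    choose e he L hL using hch
    have key := chain_induction e he (-B)
      (fun b => ∃ e' > 0, e' ≤ e b ∧ ∃ L', TreeProp ε B κ q b e' (e b) L')
      ⟨e (-B), he _, le_rfl, L (-B), tree_base (hL _ le_rfl)⟩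
      (fun b' b h1 h2 h3 ⟨e', he', _, L', hL'⟩ =>
        tree_step h1 h2 h3 he' (he b') (he b) hL' (hL b (h1.trans h2.le))) p hp
    obtain ⟨e', he', hle, L', hL'⟩ := key
    refine ⟨e', he', L', hL'.1, hL'.2.1, hL'.2.2.1, ?_⟩
    filter_upwards [hL'.2.2.2, eventually_ge_atTop (0 : ℝ)] with S hS hS0
    refine ⟨hS.1, fun y hy hlo hup => hS.2 y hy hlo fun l hl => ?_⟩
    exact (hup l hl).trans (exp_mul_mono hS0 (by linarith))

end Vale.Agent.P072
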